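import Vale.Agent.P233.H391.Dens
import Vale.Agent.P233.H748.BlkB0
import Vale.Agent.P233.H715.OutA

/-! Fields `lip`, `ham`, `lap` of `PA.LevU` and `lip`, `lap`, `dens` of `PA.LevF`. -/

set_option linter.all false

open MeasureTheory Filter Topology Set
open scoped ENNReal NNReal

universe u

namespace Vale.Agent.P233.H391

variable {M : Type u} [MeasurableSpace M] {m : Measure M} {C : Calc m}
  {P : ℝ → (M →ₘ[m] ℝ) → (M →ₘ[m] ℝ)}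

/-- the gradient bound of `u` -/
noncomputable def G₁ (K L : ℝ) : ℝ := 2 * L ^ 2 * Real.exp |K|

/-- the gradient bound of `φ` -/
noncomputable def G₂ (K L B : ℝ) : ℝ := (2 * G₁ K L + 2 * |B|) * Real.exp |K|

theorem G₁_nonneg (K L : ℝ) : 0 ≤ G₁ K L := by unfold G₁; positivity

theorem G₂_nonneg (K L B : ℝ) : 0 ≤ G₂ K L B := by
  unfold G₂
  have := G₁_nonneg K L
  positivity

theorem exp_le {ε K t : ℝ} (hε : 0 ≤ ε) (hε1 : ε ≤ 1) (ht : t ∈ Icc (0 : ℝ) 1) :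
    Real.exp (ε * |K| * t) ≤ Real.exp |K| := by
  refine Real.exp_le_exp.2 ?_
  have h1 : ε * |K| ≤ |K| := mul_le_of_le_one_left (abs_nonneg K) hε1
  exact (mul_le_of_le_one_right (by positivity) ht.2).trans h1

section

variable [SigmaFinite m] (hC : IsGamma C) {K N : ℝ} (hN : 0 < N) (hB : C.BE K N) (hP : Heat C K P)
  {ε : ℝ} {a l : M →ₘ[m] ℝ} {φ v : ℝ → M →ₘ[m] ℝ} (h : Fam C P ε a l φ v) (hε1 : ε ≤ 1)
include hC hN hB hP h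

theorem reg : C.Reg ε 0 1 φ v := H748.blk_B0 M m C K P hC (hC.bei hN hB) hP ε 0 1 φ v h.pair

include hε1

/-- A2 for `u` -/
theorem u_lip {L : ℝ} (hL : 0 ≤ L) (ha : a ∈ C.A) (haL : ∀ᵐ x ∂m, C.Γ a a x ≤ L ^ 2)
    (hεK : 8 * ε ^ 2 * |K| ≤ 1) :
    ∀ t ∈ Icc (0 : ℝ) 1, ∀ᵐ x ∂m, C.Γ (v t) (v t) x ≤ G₁ K L := by
  have hε := h.pair.hε
  have hr := reg hC hN hB hP h
  have h0 := (H372.datum_bound hC hN hB ha hL haL hε hεK).2.2.1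
  rw [← h.init] at h0
  intro t ht
  filter_upwards [hr.u_grad hC (hC.bei hN hB) (by positivity) h0 t ht] with x hx
  refine hx.trans ?_
  rw [sub_zero]
  exact mul_le_mul_of_nonneg_left (exp_le hε.le hε1 ht) (by positivity)

omit hε1 in
/-- A2H -/
theorem u_ham {C₀ : ℝ} (hC₀ : 0 ≤ C₀) (ha : a ∈ C.W) (hlo : ∀ᵐ x ∂m, -C₀ ≤ a x)
    (hhi : ∀ᵐ x ∂m, a x ≤ 0) :
    ∀ t ∈ Ioc (0 : ℝ) 1, ∀ᵐ x ∂m, t * C.Γ (v t) (v t) x ≤ 2 * (1 + ε * |K|) * C₀ := by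
  have hε := h.pair.hε
  have hr := reg hC hN hB hP h
  have hb := H715.Fam_u_bdd hC hP hC₀ h ha hlo hhi
  intro t ht
  have h1 := hr.u_ham hC (hC.bei hN hB) (c := 1 + ε * |K|) hC₀ (by simp)
    ((hb 0 ⟨le_rfl, zero_le_one⟩).mono fun x hx => hx.1) t ⟨ht.1.le, ht.2⟩
  filter_upwards [h1, hb t ⟨ht.1.le, ht.2⟩] with x k1 k2
  rw [sub_zero] at k1
  refine k1.trans ?_
  have : 0 ≤ 2 * (1 + ε * |K|) := by positivity
  have := mul_le_mul_of_nonneg_left k2.2 this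
  linarith

omit hε1 in
/-- A3H -/
theorem u_lap {C₀ : ℝ} (hC₀ : 0 ≤ C₀) (ha : a ∈ C.W) (hlo : ∀ᵐ x ∂m, -C₀ ≤ a x)
    (hhi : ∀ᵐ x ∂m, a x ≤ 0) :
    ∀ t ∈ Ioc (0 : ℝ) 1, ∀ᵐ x ∂m, C.lap (v t) x ≤ N / t + PA.c1 K ε C₀ := by
  have hε := h.pair.hε
  have hr := reg hC hN hB hP h
  have hb := H715.Fam_u_bdd hC hP hC₀ h ha hlo hhi
  intro t ht
  have h1 := hr.u_lap_ham hC hN hB (c := 1 + ε * |K|) hC₀ (by simp)
    ((hb 0 ⟨le_rfl, zero_le_one⟩).mono fun x hx => hx.1) (fun r hr => (hb r hr).mono fun x hx => hx.2)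
    t ht
  filter_upwards [h1] with x k1
  rw [sub_zero] at k1
  exact k1

/-- A2 for `φ` -/
theorem φ_lip {L B : ℝ} (hL : 0 ≤ L) (ha : a ∈ C.A) (haL : ∀ᵐ x ∂m, C.Γ a a x ≤ L ^ 2)
    (hεK : 8 * ε ^ 2 * |K| ≤ 1) (hl : l ∈ C.TestI) (hlB : ∀ᵐ x ∂m, C.Γ l l x ≤ B) :
    ∀ t ∈ Icc (0 : ℝ) 1, ∀ᵐ x ∂m, C.Γ (φ t) (φ t) x ≤ G₂ K L B := by
  have hD := hC.toIsDir
  have hε := h.pair.hε
  have hr := reg hC hN hB hP h
  have h1m : (1 : ℝ) ∈ Icc (0 : ℝ) 1 := ⟨zero_le_one, le_rfl⟩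
  have hu1 := u_lip hC hN hB hP h hε1 hL ha haL hεK 1 h1m
  have hG1 := G₁_nonneg K L
  have hvW : v 1 ∈ C.W := hC.tI_W (h.pair.u_mem 1 h1m)
  have hlW : l ∈ C.W := hC.tI_W hl
  have h0 : ∀ᵐ x ∂m, C.Γ (φ 1) (φ 1) x ≤ 2 * G₁ K L + 2 * |B| := by
    rw [h.fin]
    have hs : ε • l ∈ C.W := hC.smul_mem _ _ hlW
    have e1 : C.Γ (v 1 + ε • l) (v 1 + ε • l) + C.Γ (v 1 - ε • l) (v 1 - ε • l)
        = (2 : ℝ) • C.Γ (v 1) (v 1) + (2 * ε ^ 2) • C.Γ l l := by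
      rw [hC.add_left _ hvW _ hs _ (hC.add_mem _ hvW _ hs), hD.Γ_add_right hvW hvW hs,
        hD.Γ_add_right hs hvW hs, hD.Γ_sub_left hvW hs (hD.sub_mem hvW hs),
        hD.Γ_sub_right hvW hvW hs, hD.Γ_sub_right hs hvW hs, hC.smul_left _ _ hlW _ hs,
        hD.Γ_smul_right _ hlW hlW]
      module
    rw [eq_iff_ae] at e1
    filter_upwards [e1, add_ae (C.Γ (v 1 + ε • l) (v 1 + ε • l)) (C.Γ (v 1 - ε • l) (v 1 - ε • l)),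
      add_ae ((2 : ℝ) • C.Γ (v 1) (v 1)) ((2 * ε ^ 2) • C.Γ l l), smul_ae (C.Γ (v 1) (v 1)) 2,
      smul_ae (C.Γ l l) (2 * ε ^ 2), hu1, hlB, hD.Γ_nonneg_ae (hD.sub_mem hvW hs)]
      with x a1 a2 a3 a4 a5 a6 a7 a8
    rw [a2, a3, a4, a5] at a1
    have h3 : ε ^ 2 * C.Γ l l x ≤ |B| := by
      have h4 : ε ^ 2 ≤ 1 := pow_le_one₀ hε.le hε1
      have h5 : C.Γ l l x ≤ |B| := a7.trans (le_abs_self B)
      have h6 := mul_le_mul_of_nonneg_left h5 (sq_nonneg ε)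
      have h7 := mul_le_mul_of_nonneg_right h4 (abs_nonneg B)
      linarith
    linarith
  intro t ht
  filter_upwards [hr.φ_grad hC (hC.bei hN hB) (by positivity) h0 t ht] with x hx
  refine hx.trans ?_
  exact mul_le_mul_of_nonneg_left (exp_le hε.le hε1 ⟨by linarith [ht.2], by linarith [ht.1]⟩)
    (by positivity)

/-- A3 for `φ` -/
theorem φ_lap {L B : ℝ} (hL : 0 ≤ L) (ha : a ∈ C.A) (haL : ∀ᵐ x ∂m, C.Γ a a x ≤ L ^ 2)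
    (hεK : 8 * ε ^ 2 * |K| ≤ 1) (hl : l ∈ C.TestI) (hlB : ∀ᵐ x ∂m, C.Γ l l x ≤ B) :
    ∀ t ∈ Ico (0 : ℝ) 1, ∀ᵐ x ∂m,
      -(N / (1 - t) + √(N * |K| * G₂ K L B)) ≤ C.lap (φ t) x :=
  (reg hC hN hB hP h).φ_lap' hC hN hB (G₂_nonneg K L B)
    (φ_lip hC hN hB hP h hε1 hL ha haL hεK hl hlB)

omit hε1 in
/-- A4, from the bound of the Laplacian -/
theorem dens_of {c R : ℝ} (hc1 : 0 ≤ c)
    (hlap : ∀ t ∈ Ioc (0 : ℝ) 1, ∀ᵐ x ∂m, C.lap (v t) x ≤ N / t + c)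
    (hR : 1 ≤ R) (hl : ∀ᵐ x ∂m, l x ≤ Real.log R) :
    ∀ t ∈ Ioc (0 : ℝ) 1, ∀ᵐ x ∂m,
      rh ε φ v t x ≤ t ^ (-N) * Real.exp (c * (1 - t)) * R := by
  have hε := h.pair.hε
  intro t₁ ht₁
  have hR0 : 0 < R := by linarith
  have hpos : ∀ t ∈ Icc t₁ (1 : ℝ), 0 < t := fun t ht => ht₁.1.trans_le ht.1
  refine h.pair.dens hP hC (hC.bei hN hB) (a' := t₁) ht₁.1.le
    (R := fun t => t ^ (-N) * Real.exp (c * (1 - t)) * R) (μ := fun t => N / t + c)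
    (R' := fun t => -((N / t + c) * (t ^ (-N) * Real.exp (c * (1 - t)) * R)))
    (μ₁ := N / t₁ + c) (fun t ht => ?_) (fun t ht => ?_)
    (fun t ht => hlap t ⟨hpos t ht, ht.2⟩) (fun t ht => ?_) (fun t ht => le_rfl) ?_ t₁
    ⟨le_rfl, ht₁.2⟩
  · have h1 : 1 ≤ t ^ (-N) := Real.one_le_rpow_of_pos_of_le_one_of_nonpos (hpos t ht) ht.2 (by linarith)
    have h2 : 1 ≤ Real.exp (c * (1 - t)) := Real.one_le_exp (mul_nonneg hc1 (by linarith [ht.2]))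
    have h3 : 1 ≤ t ^ (-N) * Real.exp (c * (1 - t)) := one_le_mul_of_one_le_of_one_le h1 h2
    exact one_le_mul_of_one_le_of_one_le h3 hR
  · have ht0 := hpos t ht
    have h1 : HasDerivAt (fun t : ℝ => t ^ (-N)) (-N * t ^ (-N - 1)) t :=
      Real.hasDerivAt_rpow_const (Or.inl ht0.ne')
    have h2 : HasDerivAt (fun t : ℝ => c * (1 - t)) (-c) t := by
      have := ((hasDerivAt_id t).const_sub 1).const_mul c
      simpa using this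
    have h3 := (h1.mul h2.exp).mul_const R
    refine (h3.congr_deriv ?_).hasDerivWithinAt
    have e1 : t ^ (-N - 1) = t ^ (-N) / t := Real.rpow_sub_one ht0.ne' _
    rw [e1]
    field_simp
    ring
  · have : N / t ≤ N / t₁ := div_le_div_of_nonneg_left hN.le ht₁.1 ht.1
    linarith
  · have e1 : rh ε φ v 1 = ex l := by
      unfold rh
      rw [h.fin, add_sub_cancel_left, smul_smul, inv_mul_cancel₀ hε.ne', one_smul]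
    rw [e1]
    filter_upwards [hl, ex_ae l] with x k1 k2
    rw [k2, Real.one_rpow, sub_self, mul_zero, Real.exp_zero, one_mul, one_mul,
      ← Real.exp_log hR0]
    exact Real.exp_le_exp.2 k1

omit hε1 in
/-- A4 -/
theorem dens {C₀ R : ℝ} (hC₀ : 0 ≤ C₀) (ha : a ∈ C.W) (hlo : ∀ᵐ x ∂m, -C₀ ≤ a x)
    (hhi : ∀ᵐ x ∂m, a x ≤ 0) (hR : 1 ≤ R) (hl : ∀ᵐ x ∂m, l x ≤ Real.log R) :
    ∀ t ∈ Ioc (0 : ℝ) 1, ∀ᵐ x ∂m,
      rh ε φ v t x ≤ t ^ (-N) * Real.exp (PA.c1 K ε C₀ * (1 - t)) * R := by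
  have hε := h.pair.hε
  exact dens_of hC hN hB hP h (by unfold PA.c1; positivity)
    (u_lap hC hN hB hP h hC₀ ha hlo hhi) hR hl

omit hε1 in
/-- A4, hypothesis on `u` instead of `a` -/
theorem dens' {C₀ R : ℝ} (hC₀ : 0 ≤ C₀)
    (hb : ∀ t ∈ Icc (0 : ℝ) 1, ∀ᵐ x ∂m, -C₀ ≤ v t x ∧ v t x ≤ 0)
    (hR : 1 ≤ R) (hl : ∀ᵐ x ∂m, l x ≤ Real.log R) :
    ∀ t ∈ Ioc (0 : ℝ) 1, ∀ᵐ x ∂m,
      rh ε φ v t x ≤ t ^ (-N) * Real.exp (PA.c1 K ε C₀ * (1 - t)) * R := by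
  have hε := h.pair.hε
  have hr := reg hC hN hB hP h
  refine dens_of hC hN hB hP h (by unfold PA.c1; positivity) (fun t ht => ?_) hR hl
  have h1 := hr.u_lap_ham hC hN hB (c := 1 + ε * |K|) hC₀ (by simp)
    ((hb 0 ⟨le_rfl, zero_le_one⟩).mono fun x hx => hx.1) (fun r hr => (hb r hr).mono fun x hx => hx.2)
    t ht
  filter_upwards [h1] with x k1
  rw [sub_zero] at k1
  exact k1

end

end Vale.Agent.P233.H391
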