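import Vale.Agent.P233.H391.Lev
import Vale.Agent.P233.H715.BlkA1

/-! Row A4 in the form of helper715's assembly, and part A. -/

universe u

namespace Vale.Agent.P233.H391

theorem blk_A4 : H715.Blk_A4.{u} := by
  intro M _ m _ C K N P hN hC hB hP ε C₀ a l φ v hC₀ _ _ h hb R hR hl
  exact dens' hC hN hB hP h hC₀ hb hR hl

/-- **PART A** -/
theorem blk_A : PA.Blk_A.{u} := H715.blk_A_of blk_A4

end Vale.Agent.P233.H391
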