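import Vale.Agent.P233.H391.MaxGrad
import Vale.Agent.P233.Gig.IfB

/-! A2, A2H, A3, A3H for the potentials of a regular pair (`Calc.Reg` of `Gig/IfB.lean`). -/

open MeasureTheory Filter Topology Set
open scoped ENNReal NNReal

namespace Vale.Agent.P233

variable {M : Type*} [MeasurableSpace M] {m : Measure M} {C : Calc m}

/-- restriction to a smaller interval -/
theorem Calc.Visc.mono {σ a b Λ a' b' : ℝ} {u : ℝ → M →ₘ[m] ℝ} (hu : C.Visc σ a b Λ u)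
    (ha : a ≤ a') (hb : b' ≤ b) : C.Visc σ a' b' Λ u := by
  have hs : Icc a' b' ⊆ Icc a b := Icc_subset_Icc ha hb
  exact ⟨hu.hσ, fun t ht => hu.mem t (hs ht), fun t ht => hu.bd t (hs ht),
    fun t ht => hu.grad t (hs ht), fun t ht => hu.lap t (hs ht),
    fun t ht => (hu.deriv t (hs ht)).mono_left (nhdsWithin_mono _ (sdiff_subset_sdiff_left hs)),
    fun t ht => (hu.lapc t (hs ht)).mono_left (nhdsWithin_mono _ hs)⟩

namespace IsGamma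

variable (hC : IsGamma C)
include hC

/-- A2 -/
theorem visc_grad_exp {K : ℝ} (hB : C.BEi K) [SigmaFinite m] {σ a b Λ L : ℝ}
    {u : ℝ → M →ₘ[m] ℝ} (hu : C.Visc σ a b Λ u) (hL : 0 ≤ L)
    (h0 : ∀ᵐ x ∂m, C.Γ (u a) (u a) x ≤ L) :
    ∀ t ∈ Icc a b, ∀ᵐ x ∂m, C.Γ (u t) (u t) x ≤ L * Real.exp (2 * σ * |K| * (t - a)) := by
  refine hC.visc_grad hB hu (l := fun t => L * Real.exp (2 * σ * |K| * (t - a)))
    (l' := fun t => L * (Real.exp (2 * σ * |K| * (t - a)) * (2 * σ * |K|)))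
    (fun t _ => by positivity) (fun t _ => ?_) (fun t _ => le_of_eq (by ring)) (by simpa using h0)
  have h1 : HasDerivAt (fun t : ℝ => 2 * σ * |K| * (t - a)) (2 * σ * |K|) t := by
    simpa using ((hasDerivAt_id t).sub_const a).const_mul (2 * σ * |K|)
  exact (h1.exp.const_mul L).hasDerivWithinAt

/-- A3 with a constant gradient bound -/
theorem visc_lap_lip {K N : ℝ} (hN : 0 < N) (hB : C.BE K N) [SigmaFinite m] {σ a b Λ L t₀ : ℝ}
    {u : ℝ → M →ₘ[m] ℝ} (hu : C.Visc σ a b Λ u) (hL : 0 ≤ L)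
    (hG : ∀ t ∈ Icc a b, ∀ᵐ x ∂m, C.Γ (u t) (u t) x ≤ L) (ht₀ : 0 < t₀)
    (h0 : ∀ᵐ x ∂m, C.lap (u a) x ≤ N / t₀) :
    ∀ t ∈ Icc a b, ∀ᵐ x ∂m, C.lap (u t) x ≤ N / (t - a + t₀) + √(N * |K| * L) := by
  have hq := Real.sqrt_nonneg (N * |K| * L)
  have hq2 : √(N * |K| * L) ^ 2 = N * |K| * L := Real.sq_sqrt (by positivity)
  set q := √(N * |K| * L) with hqd
  refine hC.visc_lap hN hB hu (l := fun t => N / (t - a + t₀) + q)
    (l' := fun t => -(N / (t - a + t₀) ^ 2)) (G := fun _ => L) hG (fun t ht => ?_)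
    (fun t ht => ?_) (fun t ht => ?_) ?_
  · have : 0 < t - a + t₀ := by linarith [ht.1]
    positivity
  · have h1 : t - a + t₀ ≠ 0 := by have := ht.1; linarith
    have h2 : HasDerivAt (fun t : ℝ => t - a + t₀) 1 t :=
      ((hasDerivAt_id t).sub_const a).add_const t₀
    have h3 := ((hasDerivAt_const t N).div h2 h1).add_const q
    refine (h3.congr_deriv ?_).hasDerivWithinAt
    ring
  · have h1 : 0 < t - a + t₀ := by linarith [ht.1]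
    have e1 : -(N / (t - a + t₀) ^ 2) + (N / (t - a + t₀) + q) ^ 2 / N - |K| * L
        = 2 * q / (t - a + t₀) + (q ^ 2 / N - |K| * L) := by
      field_simp
      ring
    have e2 : q ^ 2 / N = |K| * L := by
      rw [hq2]
      field_simp
    show 0 ≤ -(N / (t - a + t₀) ^ 2) + (N / (t - a + t₀) + q) ^ 2 / N - |K| * L
    rw [e1, e2, sub_self, add_zero]
    positivity
  · filter_upwards [h0] with x hx
    simp only [sub_self, zero_add]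
    linarith

/-- A3 with a constant gradient bound, initial value arbitrary -/
theorem visc_lap_lip' {K N : ℝ} (hN : 0 < N) (hB : C.BE K N) [SigmaFinite m] {σ a b Λ L : ℝ}
    {u : ℝ → M →ₘ[m] ℝ} (hu : C.Visc σ a b Λ u) (hL : 0 ≤ L)
    (hG : ∀ t ∈ Icc a b, ∀ᵐ x ∂m, C.Γ (u t) (u t) x ≤ L) :
    ∀ t ∈ Ioc a b, ∀ᵐ x ∂m, C.lap (u t) x ≤ N / (t - a) + √(N * |K| * L) := by
  intro t ht
  have ha : a ∈ Icc a b := ⟨le_rfl, ht.1.le.trans ht.2⟩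
  have h1 : 0 < N / (|Λ| + 1) := by positivity
  have h2 := hC.visc_lap_lip hN hB hu hL hG h1 (by
    filter_upwards [hu.lap a ha] with x hx
    have e1 : N / (N / (|Λ| + 1)) = |Λ| + 1 := by field_simp
    rw [e1]
    linarith [le_abs_self (C.lap (u a) x), le_abs_self Λ]) t ⟨ht.1.le, ht.2⟩
  filter_upwards [h2] with x hx
  refine hx.trans (add_le_add ?_ le_rfl)
  exact div_le_div_of_nonneg_left hN.le (sub_pos.2 ht.1) (by linarith)

/-- A3H -/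
theorem visc_lap_ham {K N : ℝ} (hN : 0 < N) (hB : C.BE K N) [SigmaFinite m] {σ a b Λ : ℝ}
    {u : ℝ → M →ₘ[m] ℝ} (hu : C.Visc σ a b Λ u) {C₀ c : ℝ} (hC₀ : 0 ≤ C₀)
    (hc : 1 + 2 * σ * |K| * (b - a) ≤ c) (h0 : ∀ᵐ x ∂m, -C₀ ≤ u a x)
    (h1 : ∀ t ∈ Icc a b, ∀ᵐ x ∂m, u t x ≤ 0) :
    ∀ t ∈ Ioc a b, ∀ᵐ x ∂m, C.lap (u t) x ≤ N / (t - a) + c * |K| * C₀ := by
  have hB' : C.BEi K := hC.bei hN hB
  intro t ht
  have hab : a < b := ht.1.trans_le ht.2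
  have hσ := hu.hσ
  have hc0 : 0 ≤ c := le_trans (by have := sub_nonneg.2 hab.le; positivity) hc
  set δ := min (t - a) (N / (|Λ| + 1)) with hδ
  have hδ0 : 0 < δ := lt_min (sub_pos.2 ht.1) (by positivity)
  have hδt : a + δ ≤ t := by have := min_le_left (t - a) (N / (|Λ| + 1)); linarith
  have hv := hu.mono (a' := a + δ) (b' := b) (by linarith) le_rfl
  have hq : 0 ≤ c * |K| * C₀ := by positivity
  have hsub : ∀ r ∈ Icc (a + δ) b, r ∈ Icc a b := fun r hr => ⟨by linarith [hr.1], hr.2⟩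
  refine hC.visc_lap hN hB hv (l := fun t => N / (t - a) + c * |K| * C₀)
    (l' := fun t => -(N / (t - a) ^ 2)) (G := fun t => 2 * c * C₀ / (t - a)) (fun r hr => ?_)
    (fun r hr => ?_) (fun r hr => ?_) (fun r hr => ?_) ?_ t ⟨hδt, ht.2⟩
  · have hr0 : 0 < r - a := by linarith [hr.1]
    filter_upwards [hC.visc_ham hB' hu hC₀ hc h0 r (hsub r hr), h1 r (hsub r hr)] with x k1 k2
    rw [le_div_iff₀ hr0, mul_comm]
    refine k1.trans ?_
    have := mul_le_mul_of_nonneg_left k2 (by positivity : 0 ≤ 2 * c)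
    linarith
  · have hr0 : 0 < r - a := by linarith [hr.1]
    positivity
  · have hr0 : r - a ≠ 0 := by have := hr.1; linarith
    have h2 : HasDerivAt (fun t : ℝ => t - a) 1 r := (hasDerivAt_id r).sub_const a
    have h3 := ((hasDerivAt_const r N).div h2 hr0).add_const (c * |K| * C₀)
    refine (h3.congr_deriv ?_).hasDerivWithinAt
    ring
  · have hr0 : 0 < r - a := by linarith [hr.1]
    have e1 : -(N / (r - a) ^ 2) + (N / (r - a) + c * |K| * C₀) ^ 2 / N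
        - |K| * (2 * c * C₀ / (r - a)) = (c * |K| * C₀) ^ 2 / N := by
      field_simp
      ring
    show 0 ≤ -(N / (r - a) ^ 2) + (N / (r - a) + c * |K| * C₀) ^ 2 / N
        - |K| * (2 * c * C₀ / (r - a))
    rw [e1]
    positivity
  · filter_upwards [hu.lap (a + δ) (hsub _ ⟨le_rfl, hδt.trans ht.2⟩)] with x hx
    have e1 : |Λ| + 1 ≤ N / (a + δ - a) := by
      rw [add_sub_cancel_left, le_div_iff₀ hδ0]
      have := min_le_right (t - a) (N / (|Λ| + 1))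
      calc (|Λ| + 1) * δ ≤ (|Λ| + 1) * (N / (|Λ| + 1)) :=
            mul_le_mul_of_nonneg_left this (by positivity)
        _ = N := by field_simp
    linarith [le_abs_self (C.lap (u (a + δ)) x), le_abs_self Λ]

end IsGamma

/-- `(r - t)⁻¹ (f_{a+b-r} - f_{a+b-t})` -/
theorem tendsto_refl {a b t : ℝ} :
    Tendsto (fun r : ℝ => a + b - r) (𝓝[Icc a b \ {t}] t) (𝓝[Icc a b \ {a + b - t}] (a + b - t)) := by
  refine tendsto_nhdsWithin_iff.2 ⟨?_, ?_⟩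
  · refine Tendsto.mono_left ?_ nhdsWithin_le_nhds
    apply Continuous.tendsto
    fun_prop
  · filter_upwards [self_mem_nhdsWithin] with r hr
    refine ⟨⟨by linarith [hr.1.2], by linarith [hr.1.1]⟩, fun h => hr.2 ?_⟩
    have h' : a + b - r = a + b - t := h
    show r = t
    linarith

theorem tendsto_refl' {a b t : ℝ} :
    Tendsto (fun r : ℝ => a + b - r) (𝓝[Icc a b] t) (𝓝[Icc a b] (a + b - t)) := by
  refine tendsto_nhdsWithin_iff.2 ⟨?_, ?_⟩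
  · refine Tendsto.mono_left ?_ nhdsWithin_le_nhds
    apply Continuous.tendsto
    fun_prop
  · filter_upwards [self_mem_nhdsWithin] with r hr
    exact ⟨by linarith [hr.2], by linarith [hr.1]⟩

namespace Calc.Reg

variable (hC : IsGamma C)
include hC

theorem viscU {ε a b : ℝ} {φ u : ℝ → M →ₘ[m] ℝ} (h : C.Reg ε a b φ u) :
    ∃ Λ, C.Visc (ε / 2) a b Λ u := by
  obtain ⟨B, hB⟩ := h.bdd
  have hW : ∀ t ∈ Icc a b, C.lap (u t) ∈ C.W := fun t ht => hC.test_lap_mem (h.u_mem t ht).1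
  refine ⟨B, half_pos h.hε, h.u_mem, fun t ht => (hB t ht).mono fun x hx => hx.2.1,
    fun t ht => (hB t ht).mono fun x hx => hx.2.2.2.1,
    fun t ht => (hB t ht).mono fun x hx => hx.2.2.2.2.2, h.du, fun t ht => ?_⟩
  refine squeeze_zero' (Eventually.of_forall fun r => I_sq_nonneg _) ?_ (h.cu t ht)
  filter_upwards [self_mem_nhdsWithin] with r hr
  exact hC.I_sq_le_nrm2 (hC.toIsDir.sub_mem (hW r hr) (hW t ht))

theorem viscφ {K : ℝ} (hB : C.BEi K) {ε a b : ℝ} {φ u : ℝ → M →ₘ[m] ℝ} (h : C.Reg ε a b φ u) :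
    ∃ Λ, C.Visc (ε / 2) a b Λ (fun t => -φ (a + b - t)) := by
  obtain ⟨B, hb⟩ := h.bdd
  have hD := hC.toIsDir
  have hr : ∀ t ∈ Icc a b, a + b - t ∈ Icc a b := fun t ht =>
    ⟨by linarith [ht.2], by linarith [ht.1]⟩
  have hT : ∀ t ∈ Icc a b, φ t ∈ C.Test := fun t ht => (h.φ_mem t ht).1
  have hW : ∀ t ∈ Icc a b, φ t ∈ C.W := fun t ht => (hC.test_A (hT t ht)).1
  have hLW : ∀ t ∈ Icc a b, C.lap (φ t) ∈ C.W := fun t ht => hC.test_lap_mem (hT t ht)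
  have hl : ∀ t ∈ Icc a b, C.lap (-φ t) = -C.lap (φ t) := fun t ht => by
    have := hC.lap_smul hB (-1) (hT t ht)
    simpa using this
  have hG : ∀ t ∈ Icc a b, C.Γ (-φ t) (-φ t) = C.Γ (φ t) (φ t) := fun t ht => by
    have e1 : -φ t = (-1 : ℝ) • φ t := by simp
    have hs := hC.smul_mem (-1) _ (hW t ht)
    rw [e1, hC.smul_left _ _ (hW t ht) _ hs, hC.symm _ (hW t ht) _ hs,
      hC.smul_left _ _ (hW t ht) _ (hW t ht), smul_smul]
    norm_num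
  refine ⟨B, half_pos h.hε, fun t ht => ?_, fun t ht => ?_, fun t ht => ?_, fun t ht => ?_,
    fun t ht => ?_, fun t ht => ?_⟩
  · have := hC.testI_smul hB (-1) (h.φ_mem _ (hr t ht))
    simpa using this
  · filter_upwards [hb _ (hr t ht), neg_ae (φ (a + b - t))] with x h1 h2
    rw [h2, abs_neg]; exact h1.1
  · show ∀ᵐ x ∂m, C.Γ (-φ (a + b - t)) (-φ (a + b - t)) x ≤ B
    rw [hG _ (hr t ht)]
    exact (hb _ (hr t ht)).mono fun x hx => hx.2.2.1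
  · show ∀ᵐ x ∂m, |C.lap (-φ (a + b - t)) x| ≤ B
    rw [hl _ (hr t ht)]
    filter_upwards [hb _ (hr t ht), neg_ae (C.lap (φ (a + b - t)))] with x h1 h2
    rw [h2, abs_neg]; exact h1.2.2.2.2.1
  · have h1 := (h.dφ _ (hr t ht)).comp (tendsto_refl (a := a) (b := b) (t := t))
    refine h1.congr' ?_
    filter_upwards [self_mem_nhdsWithin] with r hr'
    simp only [Function.comp]
    rw [hl _ (hr t ht), hG _ (hr t ht)]
    have e1 : a + b - r - (a + b - t) = -(r - t) := by ring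
    rw [e1, inv_neg, neg_smul, ← smul_neg]
    congr 2
    · congr 1
      abel
    · rw [smul_neg]
  · show Tendsto (fun r => I ((C.lap (-φ (a + b - r)) - C.lap (-φ (a + b - t))) ^ 2))
      (𝓝[Icc a b] t) (𝓝 0)
    have h1 := (h.cφ _ (hr t ht)).comp (tendsto_refl' (a := a) (b := b) (t := t))
    refine squeeze_zero' (Eventually.of_forall fun r => I_sq_nonneg _) ?_ h1
    filter_upwards [self_mem_nhdsWithin] with r hr'
    rw [hl _ (hr t ht), hl _ (hr r hr')]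
    have e1 : -C.lap (φ (a + b - r)) - -C.lap (φ (a + b - t))
        = -(C.lap (φ (a + b - r)) - C.lap (φ (a + b - t))) := by abel
    rw [e1, neg_sq]
    exact hC.I_sq_le_nrm2 (hD.sub_mem (hLW _ (hr r hr')) (hLW _ (hr t ht)))

variable {K N ε a b : ℝ} {φ u : ℝ → M →ₘ[m] ℝ}

/-- A2 for `u` -/
theorem u_grad (hB : C.BEi K) [SigmaFinite m] (h : C.Reg ε a b φ u) {L : ℝ} (hL : 0 ≤ L)
    (h0 : ∀ᵐ x ∂m, C.Γ (u a) (u a) x ≤ L) :
    ∀ t ∈ Icc a b, ∀ᵐ x ∂m, C.Γ (u t) (u t) x ≤ L * Real.exp (ε * |K| * (t - a)) := by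
  obtain ⟨Λ, hv⟩ := h.viscU hC
  intro t ht
  have e : 2 * (ε / 2) * |K| * (t - a) = ε * |K| * (t - a) := by ring
  rw [← e]
  exact hC.visc_grad_exp hB hv hL h0 t ht

/-- A2H for `u` -/
theorem u_ham (hB : C.BEi K) [SigmaFinite m] (h : C.Reg ε a b φ u) {C₀ c : ℝ} (hC₀ : 0 ≤ C₀)
    (hc : 1 + ε * |K| * (b - a) ≤ c) (h0 : ∀ᵐ x ∂m, -C₀ ≤ u a x) :
    ∀ t ∈ Icc a b, ∀ᵐ x ∂m, (t - a) * C.Γ (u t) (u t) x ≤ 2 * c * (C₀ + u t x) := by
  obtain ⟨Λ, hv⟩ := h.viscU hC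
  have e : 1 + 2 * (ε / 2) * |K| * (b - a) = 1 + ε * |K| * (b - a) := by ring
  exact hC.visc_ham hB hv hC₀ (by rw [e]; exact hc) h0

/-- A3 for `u` -/
theorem u_lap (hN : 0 < N) (hB : C.BE K N) [SigmaFinite m] (h : C.Reg ε a b φ u) {L t₀ : ℝ}
    (hL : 0 ≤ L) (hG : ∀ t ∈ Icc a b, ∀ᵐ x ∂m, C.Γ (u t) (u t) x ≤ L) (ht₀ : 0 < t₀)
    (h0 : ∀ᵐ x ∂m, C.lap (u a) x ≤ N / t₀) :
    ∀ t ∈ Icc a b, ∀ᵐ x ∂m, C.lap (u t) x ≤ N / (t - a + t₀) + √(N * |K| * L) := by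
  obtain ⟨Λ, hv⟩ := h.viscU hC
  exact hC.visc_lap_lip hN hB hv hL hG ht₀ h0

theorem u_lap' (hN : 0 < N) (hB : C.BE K N) [SigmaFinite m] (h : C.Reg ε a b φ u) {L : ℝ}
    (hL : 0 ≤ L) (hG : ∀ t ∈ Icc a b, ∀ᵐ x ∂m, C.Γ (u t) (u t) x ≤ L) :
    ∀ t ∈ Ioc a b, ∀ᵐ x ∂m, C.lap (u t) x ≤ N / (t - a) + √(N * |K| * L) := by
  obtain ⟨Λ, hv⟩ := h.viscU hC
  exact hC.visc_lap_lip' hN hB hv hL hG

/-- A3H for `u` -/
theorem u_lap_ham (hN : 0 < N) (hB : C.BE K N) [SigmaFinite m] (h : C.Reg ε a b φ u) {C₀ c : ℝ}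
    (hC₀ : 0 ≤ C₀) (hc : 1 + ε * |K| * (b - a) ≤ c) (h0 : ∀ᵐ x ∂m, -C₀ ≤ u a x)
    (h1 : ∀ t ∈ Icc a b, ∀ᵐ x ∂m, u t x ≤ 0) :
    ∀ t ∈ Ioc a b, ∀ᵐ x ∂m, C.lap (u t) x ≤ N / (t - a) + c * |K| * C₀ := by
  obtain ⟨Λ, hv⟩ := h.viscU hC
  have e : 1 + 2 * (ε / 2) * |K| * (b - a) = 1 + ε * |K| * (b - a) := by ring
  exact hC.visc_lap_ham hN hB hv hC₀ (by rw [e]; exact hc) h0 h1

omit hC in
theorem rf {t : ℝ} (ht : t ∈ Icc a b) : a + b - t ∈ Icc a b :=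
  ⟨by linarith [ht.2], by linarith [ht.1]⟩

theorem Γ_neg (h : C.Reg ε a b φ u) {t : ℝ} (ht : t ∈ Icc a b) :
    C.Γ (-φ t) (-φ t) = C.Γ (φ t) (φ t) := by
  have hW := (hC.test_A (h.φ_mem t ht).1).1
  have e1 : -φ t = (-1 : ℝ) • φ t := by simp
  have hs := hC.smul_mem (-1) _ hW
  rw [e1, hC.smul_left _ _ hW _ hs, hC.symm _ hW _ hs, hC.smul_left _ _ hW _ hW, smul_smul]
  norm_num

theorem lap_neg (hB : C.BEi K) (h : C.Reg ε a b φ u) {t : ℝ} (ht : t ∈ Icc a b) :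
    C.lap (-φ t) = -C.lap (φ t) := by
  have := hC.lap_smul hB (-1) (h.φ_mem t ht).1
  simpa using this

/-- A2 for `φ` -/
theorem φ_grad (hB : C.BEi K) [SigmaFinite m] (h : C.Reg ε a b φ u) {L : ℝ} (hL : 0 ≤ L)
    (h0 : ∀ᵐ x ∂m, C.Γ (φ b) (φ b) x ≤ L) :
    ∀ t ∈ Icc a b, ∀ᵐ x ∂m, C.Γ (φ t) (φ t) x ≤ L * Real.exp (ε * |K| * (b - t)) := by
  obtain ⟨Λ, hv⟩ := h.viscφ hC hB
  intro t ht
  have hab : a ≤ b := h.hab.le
  have h1 := hC.visc_grad_exp hB hv hL (by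
    show ∀ᵐ x ∂m, C.Γ (-φ (a + b - a)) (-φ (a + b - a)) x ≤ L
    rw [h.Γ_neg hC (rf ⟨le_rfl, hab⟩)]
    simpa using h0) (a + b - t) (rf ht)
  have e : 2 * (ε / 2) * |K| * (a + b - t - a) = ε * |K| * (b - t) := by ring
  have e2 : a + b - (a + b - t) = t := by ring
  simp only [e, e2] at h1
  rw [h.Γ_neg hC ht] at h1
  exact h1

/-- A2H for `φ` -/
theorem φ_ham (hB : C.BEi K) [SigmaFinite m] (h : C.Reg ε a b φ u) {C₀ c : ℝ} (hC₀ : 0 ≤ C₀)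
    (hc : 1 + ε * |K| * (b - a) ≤ c) (h0 : ∀ᵐ x ∂m, φ b x ≤ C₀) :
    ∀ t ∈ Icc a b, ∀ᵐ x ∂m, (b - t) * C.Γ (φ t) (φ t) x ≤ 2 * c * (C₀ - φ t x) := by
  obtain ⟨Λ, hv⟩ := h.viscφ hC hB
  intro t ht
  have e : 1 + 2 * (ε / 2) * |K| * (b - a) = 1 + ε * |K| * (b - a) := by ring
  have h1 := hC.visc_ham hB hv (c := c) hC₀ (by rw [e]; exact hc) (by
    have e1 : a + b - a = b := by ring
    simp only [e1]
    filter_upwards [h0, neg_ae (φ b)] with x k1 k2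
    rw [k2]; linarith) (a + b - t) (rf ht)
  have e2 : a + b - (a + b - t) = t := by ring
  have e3 : a + b - t - a = b - t := by ring
  simp only [e2, e3] at h1
  rw [h.Γ_neg hC ht] at h1
  filter_upwards [h1, neg_ae (φ t)] with x k1 k2
  rw [k2] at k1
  linarith

/-- A3 for `φ` -/
theorem φ_lap (hN : 0 < N) (hB : C.BE K N) [SigmaFinite m] (h : C.Reg ε a b φ u) {L t₀ : ℝ}
    (hL : 0 ≤ L) (hG : ∀ t ∈ Icc a b, ∀ᵐ x ∂m, C.Γ (φ t) (φ t) x ≤ L) (ht₀ : 0 < t₀)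
    (h0 : ∀ᵐ x ∂m, -(N / t₀) ≤ C.lap (φ b) x) :
    ∀ t ∈ Icc a b, ∀ᵐ x ∂m, -(N / (b - t + t₀) + √(N * |K| * L)) ≤ C.lap (φ t) x := by
  have hB' : C.BEi K := hC.bei hN hB
  obtain ⟨Λ, hv⟩ := h.viscφ hC hB'
  intro t ht
  have hab : a ≤ b := h.hab.le
  have h1 := hC.visc_lap_lip hN hB hv hL (fun r hr => by
    show ∀ᵐ x ∂m, C.Γ (-φ (a + b - r)) (-φ (a + b - r)) x ≤ L
    rw [h.Γ_neg hC (rf hr)]
    exact hG _ (rf hr)) ht₀ (by
    show ∀ᵐ x ∂m, C.lap (-φ (a + b - a)) x ≤ N / t₀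
    rw [h.lap_neg hC hB' (rf ⟨le_rfl, hab⟩)]
    have e1 : a + b - a = b := by ring
    rw [e1]
    filter_upwards [h0, neg_ae (C.lap (φ b))] with x k1 k2
    rw [k2]; linarith) (a + b - t) (rf ht)
  have e2 : a + b - (a + b - t) = t := by ring
  have e3 : a + b - t - a = b - t := by ring
  simp only [e2, e3] at h1
  rw [h.lap_neg hC hB' ht] at h1
  filter_upwards [h1, neg_ae (C.lap (φ t))] with x k1 k2
  rw [k2] at k1
  linarith

theorem φ_lap' (hN : 0 < N) (hB : C.BE K N) [SigmaFinite m] (h : C.Reg ε a b φ u) {L : ℝ}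
    (hL : 0 ≤ L) (hG : ∀ t ∈ Icc a b, ∀ᵐ x ∂m, C.Γ (φ t) (φ t) x ≤ L) :
    ∀ t ∈ Ico a b, ∀ᵐ x ∂m, -(N / (b - t) + √(N * |K| * L)) ≤ C.lap (φ t) x := by
  have hB' : C.BEi K := hC.bei hN hB
  obtain ⟨Λ, hv⟩ := h.viscφ hC hB'
  intro t ht
  have h1 := hC.visc_lap_lip' hN hB hv hL (fun r hr => by
    show ∀ᵐ x ∂m, C.Γ (-φ (a + b - r)) (-φ (a + b - r)) x ≤ L
    rw [h.Γ_neg hC (rf hr)]
    exact hG _ (rf hr)) (a + b - t) ⟨by linarith [ht.2], by linarith [ht.1]⟩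
  have e2 : a + b - (a + b - t) = t := by ring
  have e3 : a + b - t - a = b - t := by ring
  simp only [e2, e3] at h1
  rw [h.lap_neg hC hB' ⟨ht.1, ht.2.le⟩] at h1
  filter_upwards [h1, neg_ae (C.lap (φ t))] with x k1 k2
  rw [k2] at k1
  linarith

/-- A3H for `φ` -/
theorem φ_lap_ham (hN : 0 < N) (hB : C.BE K N) [SigmaFinite m] (h : C.Reg ε a b φ u) {C₀ c : ℝ}
    (hC₀ : 0 ≤ C₀) (hc : 1 + ε * |K| * (b - a) ≤ c) (h0 : ∀ᵐ x ∂m, φ b x ≤ C₀)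
    (h1 : ∀ t ∈ Icc a b, ∀ᵐ x ∂m, 0 ≤ φ t x) :
    ∀ t ∈ Ico a b, ∀ᵐ x ∂m, -(N / (b - t) + c * |K| * C₀) ≤ C.lap (φ t) x := by
  have hB' : C.BEi K := hC.bei hN hB
  obtain ⟨Λ, hv⟩ := h.viscφ hC hB'
  intro t ht
  have e : 1 + 2 * (ε / 2) * |K| * (b - a) = 1 + ε * |K| * (b - a) := by ring
  have h1 := hC.visc_lap_ham hN hB hv (c := c) hC₀ (by rw [e]; exact hc) (by
    have e1 : a + b - a = b := by ring
    simp only [e1]
    filter_upwards [h0, neg_ae (φ b)] with x k1 k2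
    rw [k2]; linarith) (fun r hr => by
    filter_upwards [h1 _ (rf hr), neg_ae (φ (a + b - r))] with x k1 k2
    rw [k2]; linarith) (a + b - t) ⟨by linarith [ht.2], by linarith [ht.1]⟩
  have e2 : a + b - (a + b - t) = t := by ring
  have e3 : a + b - t - a = b - t := by ring
  simp only [e2, e3] at h1
  rw [h.lap_neg hC hB' ⟨ht.1, ht.2.le⟩] at h1
  filter_upwards [h1, neg_ae (C.lap (φ t))] with x k1 k2
  rw [k2] at k1
  linarith

end Calc.Reg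

end Vale.Agent.P233
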