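import Vale.Agent.P233.H391.Dens0
import Vale.Agent.P233.H391.MaxFin
import Vale.Agent.P233.H748.PairT

/-! A4: the density bound `ρ_t ≤ R_t` for every supersolution `R' ≤ -μ R`, `Δu_t ≤ μ_t`. -/

open MeasureTheory Filter Topology Set
open scoped ENNReal NNReal

namespace Vale.Agent.P233

variable {M : Type*} [MeasurableSpace M] {m : Measure M} {C : Calc m} {K κ ε a b : ℝ}
  {P : ℝ → (M →ₘ[m] ℝ) → (M →ₘ[m] ℝ)} {φ u : ℝ → M →ₘ[m] ℝ}

section

variable (hP : Heat C K P) (hC : IsGamma C) (hB : C.BEi κ) (hp : Pair C P ε a b φ u)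
include hP hC hB hp

/-- `div (ρ ∇θ)` in terms of `u` -/
theorem Pair.div_eq {t : ℝ} (ht : t ∈ Icc a b) :
    C.Γ (rh ε φ u t - 1) (th φ u t) + rh ε φ u t * C.lap (th φ u t)
      = C.Γ (rh ε φ u t - 1) (u t) + rh ε φ u t * C.lap (u t)
        + (ε / 2) • C.lap (rh ε φ u t - 1) := by
  have hD := hC.toIsDir
  obtain ⟨hL, hth, hr⟩ := H788.pair_mem hP hC hB hp ht
  have hu := hp.u_mem t ht
  have hε := hp.hε
  have e1 : th φ u t = u t + (ε / 2) • LL ε φ u t := by
    unfold th LL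
    rw [smul_smul]
    have : ε / 2 * ε⁻¹ = 2⁻¹ := by field_simp
    rw [this]
    module
  have e2 : C.lap (th φ u t) = C.lap (u t) + (ε / 2) • C.lap (LL ε φ u t) := by
    rw [e1, hC.lap_add hB hu.1 (hC.test_smul hB _ hL.1), hC.lap_smul hB _ hL.1]
  have e3 : C.Γ (rh ε φ u t - 1) (th φ u t)
      = C.Γ (rh ε φ u t - 1) (u t) + (ε / 2) • C.Γ (rh ε φ u t - 1) (LL ε φ u t) := by
    rw [e1, hD.Γ_add_right (hC.tI_W hr) (hC.tI_W hu) (hC.smul_mem _ _ (hC.tI_W hL)),
      hD.Γ_smul_right _ (hC.tI_W hr) (hC.tI_W hL)]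
  have e4 : C.Γ (rh ε φ u t - 1) (LL ε φ u t) = rh ε φ u t * C.Γ (LL ε φ u t) (LL ε φ u t) :=
    hD.Γ_ex (hC.tI_A hL) (hC.tI_W hL)
  have e5 : C.lap (rh ε φ u t - 1)
      = rh ε φ u t * (C.lap (LL ε φ u t) + C.Γ (LL ε φ u t) (LL ε φ u t)) := hC.lap_ex hB hL
  rw [e2, e3, e4, e5, mul_add, mul_add, mul_smul_comm, smul_add]
  abel

/-- A4 -/
theorem Pair.dens [SigmaFinite m] {a' : ℝ} (ha' : a ≤ a') {μ R R' : ℝ → ℝ} {μ₁ : ℝ}
    (hR : ∀ t ∈ Icc a' b, 1 ≤ R t)
    (hRd : ∀ t ∈ Icc a' b, HasDerivWithinAt R (R' t) (Icc a' b) t)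
    (hμ : ∀ t ∈ Icc a' b, ∀ᵐ x ∂m, C.lap (u t) x ≤ μ t) (hμ₁ : ∀ t ∈ Icc a' b, μ t ≤ μ₁)
    (hR' : ∀ t ∈ Icc a' b, R' t ≤ -(μ t * R t))
    (h0 : ∀ᵐ x ∂m, rh ε φ u b x ≤ R b) :
    ∀ t ∈ Icc a' b, ∀ᵐ x ∂m, rh ε φ u t x ≤ R t := by
  have hD := hC.toIsDir
  obtain ⟨Λ, hΛ0, hΛ⟩ := H788.pair_bounds hP hC hB hp
  have hsub : Icc a' b ⊆ Icc a b := Icc_subset_Icc ha' le_rfl
  have hrf : ∀ t ∈ Icc a' b, a' + b - t ∈ Icc a' b := fun t ht =>
    ⟨by linarith [ht.2], by linarith [ht.1]⟩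
  have hm := fun r (hr : r ∈ Icc a' b) => H788.pair_mem hP hC hB hp (hsub hr)
  have hA : ∀ t ∈ Icc a' b, rh ε φ u t - 1 ∈ C.A := fun t ht => hC.tI_A (hm t ht).2.2
  have hdv : ∀ t ∈ Icc a' b, C.DW (rh ε φ u)
      (-(C.Γ (rh ε φ u t - 1) (th φ u t) + rh ε φ u t * C.lap (th φ u t))) (Icc a b) t :=
    fun t ht => hp.DW_rh hP hC hB (hsub ht)
  -- the reversed curve
  set w : ℝ → M →ₘ[m] ℝ := fun t => rh ε φ u (a' + b - t) - 1 with hw
  set v : ℝ → M →ₘ[m] ℝ := fun t =>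
    C.Γ (rh ε φ u (a' + b - t) - 1) (th φ u (a' + b - t))
      + rh ε φ u (a' + b - t) * C.lap (th φ u (a' + b - t)) with hv
  have hwA : ∀ t ∈ Icc a' b, w t ∈ C.A := fun t ht => hA _ (hrf t ht)
  have hvW : ∀ t ∈ Icc a' b, v t ∈ C.W := fun t ht => by
    have h2 := hD.neg_mem (hdv _ (hrf t ht)).mem'
    rw [neg_neg] at h2
    exact h2
  have hwd : ∀ t ∈ Icc a' b, Tendsto (fun r => C.nrm2 ((r - t)⁻¹ • (w r - w t) - v t))
      (𝓝[Icc a' b \ {t}] t) (𝓝 0) := fun t ht => by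
    have h1 := ((hdv _ (hrf t ht)).lim.mono_left
      (nhdsWithin_mono _ (sdiff_subset_sdiff_left hsub))).comp
      (tendsto_refl (a := a') (b := b) (t := t))
    refine h1.congr' ?_
    filter_upwards [self_mem_nhdsWithin] with r hr
    simp only [Function.comp]
    have e1 : a' + b - r - (a' + b - t) = -(r - t) := by ring
    have e2 : (-(r - t))⁻¹ • (rh ε φ u (a' + b - r) - rh ε φ u (a' + b - t))
        - -(C.Γ (rh ε φ u (a' + b - t) - 1) (th φ u (a' + b - t))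
          + rh ε φ u (a' + b - t) * C.lap (th φ u (a' + b - t)))
        = -((r - t)⁻¹ • (w r - w t) - v t) := by
      simp only [hw, hv]
      rw [inv_neg]
      module
    rw [e1, e2, hD.nrm2_neg (hD.sub_mem (hC.smul_mem _ _ (hD.sub_mem (hwA r hr.1).1 (hwA t ht).1))
      (hvW t ht))]
  have key : ∀ t ∈ Icc a' b, ∀ᵐ x ∂m, w t x ≤ R (a' + b - t) - 1 := by
    refine max_scheme (w := w) (l := fun t => R (a' + b - t) - 1) (c := 2 * μ₁) (Λ := Λ)
      (fun t ht => hC.memLp _ (hwA t ht).1) (fun t ht => (hΛ _ (hsub (hrf t ht))).2.2.2.2.2.2.1.abs)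
      (fun t ht => ?_) (fun t ht => by linarith [hR _ (hrf t ht)]) (fun t ht => ?_) ?_ ?_
    · refine squeeze_zero' (Eventually.of_forall fun r => I_sq_nonneg _) ?_
        (hD.W_cont ht (fun r hr => (hwA r hr).1) (hvW t ht) (hwd t ht))
      filter_upwards [self_mem_nhdsWithin] with r hr
      exact hC.I_sq_le_nrm2 (hD.sub_mem (hwA r hr).1 (hwA t ht).1)
    · have h1 : ContinuousWithinAt R (Icc a' b) (a' + b - t) :=
        (hRd _ (hrf t ht)).continuousWithinAt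
      exact (h1.tendsto.comp (tendsto_refl' (a := a') (b := b) (t := t))).sub_const 1
    · have e1 : a' + b - a' = b := by ring
      simp only [hw, e1]
      filter_upwards [h0, sub_ae (rh ε φ u b) 1, one_ae (M := M) (m := m)] with x k1 k2 k3
      rw [k2, k3]; linarith
    · intro s hs δ hδ
      have hs' : s ∈ Icc a' b := ⟨hs.1.le, hs.2⟩
      have hrs := hrf s hs'
      have hl0 : 0 ≤ R (a' + b - s) - 1 := by linarith [hR _ hrs]
      have hφA : sqc (R (a' + b - s) - 1) (w s) ∈ C.A := (hD.sqc_mem hl0 (hwA s hs')).1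
      have hst := hC.dens_static (σ := ε / 2) (half_pos hp.hε).le (hp.u_mem _ (hsub hrs))
        (rho := rh ε φ u (a' + b - s)) (hA _ hrs) (l := R (a' + b - s) - 1)
        (l' := -R' (a' + b - s)) hl0 (hμ _ hrs) (by
          have := hR' _ hrs
          have e1 : 1 + (R (a' + b - s) - 1) = R (a' + b - s) := by ring
          rw [e1]; linarith)
      have hFF : 2 * μ (a' + b - s) * FF (R (a' + b - s) - 1) (w s)
          ≤ 2 * μ₁ * FF (R (a' + b - s) - 1) (w s) :=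
        mul_le_mul_of_nonneg_right (by linarith [hμ₁ _ hrs]) (FF_nonneg _ _)
      have hld : HasDerivWithinAt (fun t => R (a' + b - t) - 1) (-R' (a' + b - s)) (Icc a' b) s := by
        have k1 : HasDerivWithinAt (fun t : ℝ => a' + b - t) (-1) (Icc a' b) s :=
          ((hasDerivAt_id s).const_sub (a' + b)).hasDerivWithinAt
        have k2 := (hRd _ hrs).scomp s k1 (fun r hr => hrf r hr)
        have k3 := k2.sub_const 1
        refine k3.congr_deriv ?_
        simp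
      refine left_asm (l := fun t => R (a' + b - t) - 1) (l' := -R' (a' + b - s))
        (a₀ := I (sqc (R (a' + b - s) - 1) (w s) * v s)) hs hld (I_nonneg (sqc_nonneg _ _))
        (fun δ' hδ' => ?_) ?_ hδ
      · filter_upwards [hD.left_I hs (fun r hr => (hwA r hr).1) (hvW s hs') (hwd s hs')
          (hC.memLp _ hφA.1) hδ'] with t k1
        have := (abs_le.1 k1).2
        linarith
      · refine le_trans (le_of_eq ?_) (hst.trans hFF)
        have e2 : v s = C.Γ (rh ε φ u (a' + b - s) - 1) (u (a' + b - s))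
            + rh ε φ u (a' + b - s) * C.lap (u (a' + b - s))
            + (ε / 2) • C.lap (rh ε φ u (a' + b - s) - 1) :=
          Pair.div_eq hP hC hB hp (hsub hrs)
        have hrI := (hm _ hrs).2.2
        have huI := hp.u_mem _ (hsub hrs)
        rw [e2]
        show I (sqc (R (a' + b - s) - 1) (rh ε φ u (a' + b - s) - 1) * _) - _ = _
        set φ₁ := sqc (R (a' + b - s) - 1) (rh ε φ u (a' + b - s) - 1) with hφ₁
        have m1 : MemLp (φ₁ * C.Γ (rh ε φ u (a' + b - s) - 1) (u (a' + b - s)) : M →ₘ[m] ℝ) 1 m :=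
          mem_mul_top hφA.2 (hD.Γ_mem1 (hC.tI_W hrI) (hC.tI_W huI))
        have hrt : MemLp (rh ε φ u (a' + b - s)) ∞ m := by
          have e3 : rh ε φ u (a' + b - s) = (rh ε φ u (a' + b - s) - 1) + 1 := by abel
          rw [e3]
          refine mem_add (hC.tI_A hrI).2 ?_
          exact (memLp_congr_ae AEEqFun.coeFn_one).2 (memLp_top_const (1 : ℝ))
        have m2 : MemLp (φ₁ * (rh ε φ u (a' + b - s) * C.lap (u (a' + b - s))) : M →ₘ[m] ℝ) 1 m := by
          have e3 : φ₁ * (rh ε φ u (a' + b - s) * C.lap (u (a' + b - s)))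
              = (rh ε φ u (a' + b - s) * C.lap (u (a' + b - s))) * φ₁ := mul_comm _ _
          rw [e3]
          exact mem_mul_top (mem_mul_top hrt huI.2) (sqc_mem1 hl0 (hC.memLp _ (hwA s hs').1))
        have m3 : MemLp (φ₁ * C.lap (rh ε φ u (a' + b - s) - 1) : M →ₘ[m] ℝ) 1 m :=
          mem_mul_22 (hC.memLp _ hφA.1) (hC.memLp _ (hC.test_lap_mem hrI.1))
        have e4 : I (φ₁ * C.lap (rh ε φ u (a' + b - s) - 1))
            = -I (C.Γ (rh ε φ u (a' + b - s) - 1) φ₁) := by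
          have h1 : I (C.Γ (rh ε φ u (a' + b - s) - 1) φ₁)
            = -I (C.lap (rh ε φ u (a' + b - s) - 1) * φ₁) :=
            (hC.test_isLap hrI.1).2.2 φ₁ hφA.1
          rw [h1, neg_neg, mul_comm]
        rw [mul_add, mul_add, mul_smul_comm, I_add (mem_add m1 m2) (mem_smul _ m3), I_add m1 m2,
          I_smul, e4]
        ring
  intro t ht
  have h1 := key (a' + b - t) (hrf t ht)
  have e1 : a' + b - (a' + b - t) = t := by ring
  simp only [hw, e1] at h1
  filter_upwards [h1, sub_ae (rh ε φ u t) 1, one_ae (M := M) (m := m)] with x k1 k2 k3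
  rw [k2, k3] at k1
  linarith

end

end Vale.Agent.P233
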