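import Vale.Agent.P233.H391.MaxUse

/-! A4: the density bound, by the maximum principle (static part). -/

open MeasureTheory Filter Topology Set
open scoped ENNReal NNReal

namespace Vale.Agent.P233

variable {M : Type*} [MeasurableSpace M] {m : Measure M} {C : Calc m}

/-- the class of `β (w x)`, `β(x) = (x-l)₊³/3` -/
noncomputable def cuc (l : ℝ) (w : M →ₘ[m] ℝ) : M →ₘ[m] ℝ :=
  AEEqFun.comp (pcu l) (pcu_cont l) w

theorem cuc_ae (l : ℝ) (w : M →ₘ[m] ℝ) : ∀ᵐ x ∂m, cuc l w x = pcu l (w x) :=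
  AEEqFun.coeFn_comp _ _ _

theorem pcu_deriv (l x : ℝ) : HasDerivAt (pcu l) (psq l x) x := by
  have key : HasDerivAt (fun y : ℝ => max y 0 ^ 3 / 3) (max (x - l) 0 ^ 2) (x - l) := by
    set y₀ := x - l
    rcases lt_trichotomy y₀ 0 with h | h | h
    · rw [max_eq_right h.le, zero_pow two_ne_zero]
      refine (hasDerivAt_const y₀ (0 : ℝ)).congr_of_eventuallyEq ?_
      filter_upwards [Iio_mem_nhds h] with y hy
      have hy' : y < 0 := hy
      simp [max_eq_right hy'.le]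
    · rw [h, max_self, zero_pow two_ne_zero]
      rw [hasDerivAt_iff_isLittleO]
      simp only [max_self, sub_zero, smul_zero]
      rw [Asymptotics.isLittleO_iff]
      intro c hc
      have h1 : ∀ᶠ y : ℝ in 𝓝 0, |y| < min 1 c := by
        have : Tendsto (fun y : ℝ => |y|) (𝓝 0) (𝓝 |(0 : ℝ)|) := (continuous_abs.tendsto 0)
        rw [abs_zero] at this
        exact this.eventually_lt_const (lt_min one_pos hc)
      filter_upwards [h1] with y hy
      have hy1 := (lt_min_iff.1 hy).1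
      have hy2 := (lt_min_iff.1 hy).2
      rw [Real.norm_eq_abs, Real.norm_eq_abs]
      have e0 : (0 : ℝ) ^ 3 / 3 = 0 := by norm_num
      rw [e0, sub_zero, abs_of_nonneg (by positivity)]
      have e1 : max y 0 ≤ |y| := max_le (le_abs_self y) (abs_nonneg y)
      have e2 : max y 0 ^ 3 ≤ |y| ^ 3 := pow_le_pow_left₀ (le_max_right _ _) e1 3
      have e3 : |y| ^ 3 ≤ |y| * c := by
        have h0 := abs_nonneg y
        have : |y| ^ 2 ≤ |y| := by nlinarith
        nlinarith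
      have h0 := abs_nonneg y
      nlinarith
    · rw [max_eq_left h.le]
      have h1 : HasDerivAt (fun y : ℝ => y ^ 3 / 3) (y₀ ^ 2) y₀ := by
        refine ((hasDerivAt_pow 3 y₀).div_const 3).congr_deriv ?_
        norm_num
      refine h1.congr_of_eventuallyEq ?_
      filter_upwards [Ioi_mem_nhds h] with y hy
      have hy' : 0 < y := hy
      simp [max_eq_left hy'.le]
  have h2 : HasDerivAt (fun y : ℝ => y - l) 1 x := (hasDerivAt_id x).sub_const l
  have h3 := HasDerivAt.comp x key h2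
  rw [mul_one] at h3
  exact h3

theorem IsDir.cuc_mem (hC : IsDir C) {l : ℝ} (hl : 0 ≤ l) {w : M →ₘ[m] ℝ} (hw : w ∈ C.A) :
    cuc l w ∈ C.A ∧ ∀ g ∈ C.W, C.Γ (cuc l w) g = sqc l w * C.Γ w g := by
  obtain ⟨K, hK⟩ := mem_top_iff.1 hw.2
  have hab : ∀ᵐ x ∂m, -|K| ≤ w x ∧ w x ≤ |K| := by
    filter_upwards [hK] with x hx
    exact abs_le.1 (hx.trans (le_abs_self K))
  have h := hC.hc_chain hw.1 (neg_nonpos.2 (abs_nonneg K)) (abs_nonneg K) hab
    (φ := pcu l) (φ' := psq l) (pcu_cont l) (psq_cont l)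
    (fun t _ => (pcu_deriv l t).hasDerivWithinAt) (by unfold pcu; simp [hl])
  exact ⟨⟨h.1, hc_comp_top hab (pcu_cont l)⟩, h.2⟩

/-- A4, the static part -/
theorem IsGamma.dens_static (hC : IsGamma C) {σ : ℝ} (hσ : 0 ≤ σ)
    {f rho : M →ₘ[m] ℝ} (hf : f ∈ C.TestI) (hr : rho - 1 ∈ C.A) {l l' m₀ : ℝ} (hl0 : 0 ≤ l)
    (hm : ∀ᵐ x ∂m, C.lap f x ≤ m₀) (hl' : m₀ * (1 + l) ≤ l') :
    -(σ * I (C.Γ (rho - 1) (sqc l (rho - 1)))) + I (sqc l (rho - 1) * C.Γ (rho - 1) f)
      + I (sqc l (rho - 1) * (rho * C.lap f)) - l' * I (sqc l (rho - 1))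
      ≤ 2 * m₀ * FF l (rho - 1) := by
  have hD := hC.toIsDir
  set w := rho - 1 with hw
  have hs := hD.sqc_mem hl0 hr
  have hc := hD.cuc_mem hl0 hr
  set φ := sqc l w with hφ
  set β := cuc l w with hβ
  have hT : f ∈ C.Test := hf.1
  have hW : f ∈ C.W := (hC.test_A hT).1
  have hLW : C.lap f ∈ C.W := hC.test_lap_mem hT
  obtain ⟨hX, hE⟩ := hD.sqc_E hl0 hr
  have e0 : 0 ≤ ∫ x, max (w x - l) 0 * C.Γ w w x ∂m := by
    refine integral_nonneg_of_ae ?_
    filter_upwards [hD.Γ_nonneg_ae hr.1] with x hx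
    exact mul_nonneg (le_max_right _ _) hx
  have i1 : MemLp φ 1 m := sqc_mem1 hl0 (hC.memLp _ hr.1)
  have hφI : 0 ≤ I φ := I_nonneg (sqc_nonneg _ _)
  have e1 : I (φ * C.Γ w f) = -I (C.lap f * β) := by
    have h1 := (hC.test_isLap hT).2.2 β hc.1.1
    have h2 : C.Γ f β = φ * C.Γ w f := by rw [hC.symm _ hW _ hc.1.1]; exact hc.2 f hW
    rw [h2] at h1
    exact h1
  have hrt : MemLp rho ∞ m := by
    have : rho = w + 1 := by rw [hw]; abel
    rw [this]
    refine mem_add hr.2 ?_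
    exact (memLp_congr_ae AEEqFun.coeFn_one).2 (memLp_top_const (1 : ℝ))
  have i2 : MemLp (φ * (rho * C.lap f) : M →ₘ[m] ℝ) 1 m := by
    have : φ * (rho * C.lap f) = (rho * C.lap f) * φ := mul_comm _ _
    rw [this]
    exact mem_mul_top (mem_mul_top hrt hf.2) i1
  have i3 : MemLp (C.lap f * β : M →ₘ[m] ℝ) 1 m :=
    mem_mul_22 (hC.memLp _ hLW) (hC.memLp _ hc.1.1)
  have i4 : Integrable (fun x => pcu l (w x)) m := pcu_int hl0 (hC.memLp _ hr.1) hr.2
  have e2 : I (φ * (rho * C.lap f)) - I (C.lap f * β) ≤ m₀ * (2 * FF l w + (1 + l) * I φ) := by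
    unfold FF
    rw [← I_sub i2 i3]
    unfold I
    rw [← integral_const_mul (2 : ℝ), ← integral_const_mul (1 + l),
      ← integral_add (i4.const_mul _) ((int_of_mem i1).const_mul _), ← integral_const_mul]
    refine integral_mono_ae (int_of_mem (mem_sub i2 i3))
      (((i4.const_mul _).add ((int_of_mem i1).const_mul _)).const_mul _) ?_
    filter_upwards [sub_ae (φ * (rho * C.lap f)) (C.lap f * β), mul_ae φ (rho * C.lap f),
      mul_ae rho (C.lap f), mul_ae (C.lap f) β, sqc_ae l w, cuc_ae l w, hm,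
      sub_ae rho (1 : M →ₘ[m] ℝ), AEEqFun.coeFn_one (α := M) (μ := m) (β := ℝ)]
      with x a1 a2 a3 a4 a5 a6 a7 a8 a9
    rw [a1, a2, a3, a4, hφ, hβ, a5, a6]
    have hrx : rho x = w x + 1 := by
      rw [hw, a8, a9]; simp
    rw [hrx]
    unfold psq pcu
    rcases le_total (w x - l) 0 with h | h
    · rw [max_eq_right h]; norm_num
    · rw [max_eq_left h]
      have e3 : (w x - l) ^ 2 * ((w x + 1) * C.lap f x) - C.lap f x * ((w x - l) ^ 3 / 3)
          = (2 * ((w x - l) ^ 3 / 3) + (1 + l) * (w x - l) ^ 2) * C.lap f x := by ring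
      rw [e3, mul_comm]
      exact mul_le_mul_of_nonneg_right a7 (by positivity)
  have e4 : m₀ * (1 + l) * I φ ≤ l' * I φ := mul_le_mul_of_nonneg_right hl' hφI
  rw [e1, hE]
  have e5 : 0 ≤ σ * (2 * ∫ x, max (w x - l) 0 * C.Γ w w x ∂m) := by positivity
  linarith

end Vale.Agent.P233
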