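import Vale.Agent.P233.Bd3.B1

/-! Maximum principle toolbox: one-sided Gronwall, the convex function `x₊³/3`,
compositions with `(x-l)₊²`, and the weak Bochner inequality `BE(K,N)` tested with `φ ∈ C.A`. -/

open MeasureTheory Filter Topology Set
open scoped ENNReal NNReal

namespace Vale.Agent.P233

/-- One-sided Gronwall lemma: upper left Dini derivative `≤ c F`. -/
theorem left_gronwall {F : ℝ → ℝ} {a b c : ℝ} (hF : ContinuousOn F (Icc a b))
    (h0 : F a ≤ 0)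
    (hD : ∀ s ∈ Ioc a b, ∀ δ > 0, ∀ᶠ t in 𝓝[<] s, F s - F t ≤ (c * F s + δ) * (s - t)) :
    ∀ s ∈ Icc a b, F s ≤ 0 := by
  intro s₁ hs₁
  refine le_of_forall_pos_lt_add fun ε hε => ?_
  rw [zero_add]
  by_contra hcon
  rw [not_lt] at hcon
  set k : ℝ := Real.exp (-((c + 1) * (s₁ - a))) with hk
  set B : ℝ → ℝ := fun s => ε * k * Real.exp ((c + 1) * (s - a)) with hB
  have hkpos : 0 < k := Real.exp_pos _
  have hBpos : ∀ s, 0 < B s := fun s => by positivity
  have hBd : ∀ s, HasDerivAt B ((c + 1) * B s) s := by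
    intro s
    have h1 : HasDerivAt (fun s => (c + 1) * (s - a)) ((c + 1) * 1) s :=
      ((hasDerivAt_id s).sub_const a).const_mul _
    have h2 := (h1.exp).const_mul (ε * k)
    refine h2.congr_deriv ?_
    simp only [hB]; ring
  have hBc : Continuous B := by
    simp only [hB]; fun_prop
  have hBs₁ : B s₁ = ε := by
    simp only [hB, hk]
    rw [mul_assoc, ← Real.exp_add]; simp
  set S : Set ℝ := {s | s ∈ Icc a s₁ ∧ B s ≤ F s} with hS
  have hcl : IsCompact S := by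
    have hFc : ContinuousOn F (Icc a s₁) := hF.mono (Icc_subset_Icc_right hs₁.2)
    have : IsClosed S := isClosed_Icc.isClosed_le hBc.continuousOn hFc
    exact isCompact_Icc.of_isClosed_subset this fun x hx => hx.1
  have hne : S.Nonempty := ⟨s₁, ⟨⟨hs₁.1, le_rfl⟩, by rw [hBs₁]; exact hcon⟩⟩
  obtain ⟨s, hsS, hmin⟩ := hcl.exists_isLeast hne
  have hsa : a < s := by
    rcases hsS.1.1.lt_or_eq with h | h
    · exact h
    · exfalso
      have h2 := hsS.2
      rw [← h] at h2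
      linarith [hBpos a]
  have hsb : s ∈ Ioc a b := ⟨hsa, hsS.1.2.trans hs₁.2⟩
  have hlt : ∀ t, a ≤ t → t < s → F t < B t := by
    intro t h1 h2
    by_contra hh
    rw [not_lt] at hh
    have : t ∈ S := ⟨⟨h1, h2.le.trans hsS.1.2⟩, hh⟩
    exact absurd (hmin this) (not_le.2 h2)
  have hFs : F s = B s := by
    refine le_antisymm ?_ hsS.2
    have h1 : Tendsto (fun t => B t - F t) (𝓝[Ico a s] s) (𝓝 (B s - F s)) := by
      refine (hBc.continuousAt.mono_left nhdsWithin_le_nhds).sub ?_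
      exact (hF s ⟨hsb.1.le, hsb.2⟩).mono_left
        (nhdsWithin_mono _ fun t ht => ⟨ht.1, ht.2.le.trans hsb.2⟩)
    have h2 : (𝓝[Ico a s] s).NeBot := by
      rw [nhdsWithin_Ico_eq_nhdsLT hsa]; infer_instance
    have h3 : 0 ≤ B s - F s := by
      refine ge_of_tendsto h1 ?_
      filter_upwards [self_mem_nhdsWithin] with t ht
      linarith [hlt t ht.1 ht.2]
    linarith
  have e1 := hD s hsb (B s / 4) (by have := hBpos s; positivity)
  have e2 : ∀ᶠ t in 𝓝[<] s, (c + 1 / 2) * B s * (s - t) ≤ B s - B t := by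
    have h1 := (hBd s).tendsto_slope
    have h2 : Tendsto (_root_.slope B s) (𝓝[<] s) (𝓝 ((c + 1) * B s)) :=
      h1.mono_left (nhdsWithin_mono _ fun t (ht : t < s) => ne_of_lt ht)
    have h3 : ∀ᶠ t in 𝓝[<] s, (c + 1 / 2) * B s < _root_.slope B s t :=
      h2.eventually (lt_mem_nhds (by nlinarith [hBpos s]))
    filter_upwards [h3, self_mem_nhdsWithin] with t ht htt
    have h4 : 0 < s - t := sub_pos.2 htt
    have h5 : _root_.slope B s t = (B s - B t) / (s - t) := by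
      rw [slope_def_field, ← neg_sub (B s) (B t), ← neg_sub s t, neg_div_neg_eq]
    rw [h5, lt_div_iff₀ h4] at ht
    exact ht.le
  have e3 : ∀ᶠ t in 𝓝[<] s, a ≤ t := by
    filter_upwards [Ioo_mem_nhdsLT hsa] with t ht using ht.1.le
  have e4 : ∀ᶠ t in 𝓝[<] s, False := by
    filter_upwards [e1, e2, e3, self_mem_nhdsWithin] with t h1 h2 h3 h4
    have h5 := hlt t h3 h4
    have h6 : 0 < s - t := sub_pos.2 h4
    rw [hFs] at h1
    have h7 := hBpos s
    nlinarith [mul_pos h7 h6]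
  exact (e4.exists).elim fun _ h => h

/-- `b(x) = x₊²`. -/
noncomputable def psq (l x : ℝ) : ℝ := max (x - l) 0 ^ 2

/-- `β(x) = x₊³/3`. -/
noncomputable def pcu (l x : ℝ) : ℝ := max (x - l) 0 ^ 3 / 3

theorem psq_nonneg (l x : ℝ) : 0 ≤ psq l x := by unfold psq; positivity

theorem pcu_nonneg (l x : ℝ) : 0 ≤ pcu l x := by unfold pcu; positivity

theorem psq_cont (l : ℝ) : Continuous (psq l) := by unfold psq; fun_prop

theorem pcu_cont (l : ℝ) : Continuous (pcu l) := by unfold pcu; fun_prop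

theorem pcu_conv (k l x y : ℝ) :
    pcu l y - pcu k x ≤ psq l y * (y - x) - (l - k) * psq l y := by
  unfold pcu psq
  have h : ∀ X Y : ℝ, max Y 0 ^ 3 / 3 - max X 0 ^ 3 / 3 ≤ max Y 0 ^ 2 * (Y - X) := by
    intro X Y
    rcases le_total Y 0 with hY | hY
    · rw [max_eq_right hY]
      have : (0 : ℝ) ≤ max X 0 ^ 3 := by positivity
      nlinarith
    · rw [max_eq_left hY]
      rcases le_total X 0 with hX | hX
      · rw [max_eq_right hX]
        nlinarith [mul_nonneg (sq_nonneg Y) (neg_nonneg.2 hX), pow_nonneg hY 3]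
      · rw [max_eq_left hX]
        nlinarith [mul_nonneg hX (sq_nonneg (Y - X)), mul_nonneg hY (sq_nonneg (Y - X)),
          mul_nonneg hX hY]
  have := h (x - k) (y - l)
  nlinarith [this]

theorem psq_deriv (l x : ℝ) : HasDerivAt (psq l) (2 * max (x - l) 0) x := by
  have key : HasDerivAt (fun y : ℝ => max y 0 ^ 2) (2 * max (x - l) 0) (x - l) := by
    set y₀ := x - l
    rcases lt_trichotomy y₀ 0 with h | h | h
    · rw [max_eq_right h.le, mul_zero]
      refine (hasDerivAt_const y₀ (0 : ℝ)).congr_of_eventuallyEq ?_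
      filter_upwards [Iio_mem_nhds h] with y hy
      rw [max_eq_right (le_of_lt hy)]; norm_num
    · rw [h, max_self, mul_zero]
      rw [hasDerivAt_iff_isLittleO_nhds_zero]
      simp only [zero_add, max_self, ne_eq, OfNat.ofNat_ne_zero, not_false_eq_true, zero_pow,
        sub_zero, smul_zero]
      refine Asymptotics.isLittleO_iff.2 fun c hc => ?_
      filter_upwards [Metric.ball_mem_nhds (0 : ℝ) hc] with y hy
      rw [Metric.mem_ball, dist_zero_right, Real.norm_eq_abs] at hy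
      rw [Real.norm_eq_abs, Real.norm_eq_abs, abs_of_nonneg (by positivity)]
      have h1 : max y 0 ≤ |y| := max_le (le_abs_self _) (abs_nonneg _)
      have h2 : 0 ≤ max y 0 := le_max_right _ _
      nlinarith [abs_nonneg y]
    · rw [max_eq_left h.le]
      have h1 : HasDerivAt (fun y : ℝ => y ^ 2) (2 * y₀) y₀ := by
        simpa using hasDerivAt_pow 2 y₀
      refine h1.congr_of_eventuallyEq ?_
      filter_upwards [Ioi_mem_nhds h] with y hy
      rw [max_eq_left (le_of_lt hy)]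
  have h2 : HasDerivAt (fun y : ℝ => y - l) 1 x := (hasDerivAt_id x).sub_const l
  have h3 := key.comp x h2
  rw [mul_one] at h3
  exact h3

theorem psq_le {l : ℝ} (hl : 0 ≤ l) (x : ℝ) : psq l x ≤ x ^ 2 := by
  unfold psq
  rcases le_total (x - l) 0 with h | h
  · rw [max_eq_right h]; nlinarith [sq_nonneg x]
  · rw [max_eq_left h]; nlinarith

theorem pcu_le {l : ℝ} (hl : 0 ≤ l) (x : ℝ) : pcu l x ≤ |x| * x ^ 2 := by
  unfold pcu
  rcases le_total (x - l) 0 with h | h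
  · rw [max_eq_right h]; norm_num; positivity
  · rw [max_eq_left h]
    have hx : 0 ≤ x := by linarith
    rw [abs_of_nonneg hx]
    have h1 : (x - l) ^ 3 ≤ x ^ 3 := pow_le_pow_left₀ h (by linarith) 3
    nlinarith [pow_nonneg hx 3, pow_nonneg h 3]

section cls

variable {M : Type*} [MeasurableSpace M] {m : Measure M} {C : Calc m}

/-- `(w-l)₊²` as a class. -/
noncomputable def sqc (l : ℝ) (w : M →ₘ[m] ℝ) : M →ₘ[m] ℝ :=
  AEEqFun.comp (psq l) (psq_cont l) w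

theorem sqc_ae (l : ℝ) (w : M →ₘ[m] ℝ) : ∀ᵐ x ∂m, sqc l w x = psq l (w x) :=
  AEEqFun.coeFn_comp _ _ _

theorem sqc_nonneg (l : ℝ) (w : M →ₘ[m] ℝ) : 0 ≤ sqc l w := by
  rw [nonneg_iff_ae]
  filter_upwards [sqc_ae l w] with x hx
  rw [hx]; exact psq_nonneg _ _

theorem sqc_mem1 {l : ℝ} (hl : 0 ≤ l) {w : M →ₘ[m] ℝ} (hw : MemLp w 2 m) :
    MemLp (sqc l w) 1 m := by
  refine mem_of_le (mem_sq hw) ?_
  filter_upwards [sqc_ae l w, sq_ae w] with x h1 h2
  rw [h1, h2, abs_of_nonneg (psq_nonneg _ _), abs_of_nonneg (sq_nonneg _)]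
  exact psq_le hl _

theorem pcu_int {l : ℝ} (hl : 0 ≤ l) {w : M →ₘ[m] ℝ} (hw : MemLp w 2 m) (hw' : MemLp w ∞ m) :
    Integrable (fun x => pcu l (w x)) m := by
  obtain ⟨K, hK⟩ := mem_top_iff.1 hw'
  refine Integrable.mono' (g := fun x => K * w x ^ 2) ?_
    ((pcu_cont l).comp_aestronglyMeasurable w.aestronglyMeasurable) ?_
  · have h1 := (int_of_mem (mem_sq hw)).const_mul K
    refine h1.congr ?_
    filter_upwards [sq_ae w] with x hx
    rw [hx]
  · filter_upwards [hK] with x hx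
    rw [Real.norm_eq_abs, abs_of_nonneg (pcu_nonneg _ _)]
    exact (pcu_le hl _).trans (mul_le_mul_of_nonneg_right hx (sq_nonneg _))

namespace IsDir

variable (hC : IsDir C)
include hC

theorem sqc_mem {l : ℝ} (hl : 0 ≤ l) {w : M →ₘ[m] ℝ} (hw : w ∈ C.A) :
    sqc l w ∈ C.A ∧ ∀ g ∈ C.W, ∀ᵐ x ∂m, C.Γ (sqc l w) g x = 2 * max (w x - l) 0 * C.Γ w g x := by
  obtain ⟨K, hK⟩ := mem_top_iff.1 hw.2
  have hab : ∀ᵐ x ∂m, -|K| ≤ w x ∧ w x ≤ |K| := by
    filter_upwards [hK] with x hx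
    exact abs_le.1 (hx.trans (le_abs_self K))
  have h := hC.hc_chain hw.1 (neg_nonpos.2 (abs_nonneg K)) (abs_nonneg K) hab
    (φ := psq l) (φ' := fun x => 2 * max (x - l) 0) (psq_cont l) (by fun_prop)
    (fun t _ => (psq_deriv l t).hasDerivWithinAt) (by unfold psq; simp [hl])
  refine ⟨⟨h.1, hc_comp_top hab (psq_cont l)⟩, fun g hg => ?_⟩
  have h1 := h.2 g hg
  have h2 := AEEqFun.coeFn_comp (fun x => 2 * max (x - l) 0) (by fun_prop) w
  filter_upwards [mul_ae (AEEqFun.comp (fun x => 2 * max (x - l) 0) (by fun_prop) w) (C.Γ w g),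
    h2] with x h3 h4
  unfold sqc
  rw [h1, h3, h4]
  rfl

/-- The energy functional `∫ (w-l)₊³/3`. -/
noncomputable def _root_.Vale.Agent.P233.FF (l : ℝ) (w : M →ₘ[m] ℝ) : ℝ := ∫ x, pcu l (w x) ∂m

omit hC in
theorem _root_.Vale.Agent.P233.FF_nonneg (l : ℝ) (w : M →ₘ[m] ℝ) : 0 ≤ FF l w :=
  integral_nonneg fun _ => pcu_nonneg _ _

omit hC in
theorem _root_.Vale.Agent.P233.le_of_FF {l : ℝ} (hl : 0 ≤ l) {w : M →ₘ[m] ℝ} (hw : MemLp w 2 m)
    (hw' : MemLp w ∞ m) (h : FF l w ≤ 0) : ∀ᵐ x ∂m, w x ≤ l := by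
  have h0 : ∫ x, pcu l (w x) ∂m = 0 := le_antisymm h (FF_nonneg l w)
  rw [integral_eq_zero_iff_of_nonneg (fun _ => pcu_nonneg _ _) (pcu_int hl hw hw')] at h0
  filter_upwards [h0] with x hx
  by_contra hcon
  rw [not_le] at hcon
  have h1 : pcu l (w x) = 0 := hx
  unfold pcu at h1
  rw [max_eq_left (by linarith)] at h1
  have h2 : 0 < (w x - l) ^ 3 := pow_pos (by linarith) 3
  linarith

omit hC in
theorem _root_.Vale.Agent.P233.FF_eq_zero {l : ℝ} {w : M →ₘ[m] ℝ}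
    (h : ∀ᵐ x ∂m, w x ≤ l) : FF l w = 0 := by
  unfold FF
  rw [← integral_zero M ℝ (μ := m)]
  refine integral_congr_ae ?_
  filter_upwards [h] with x hx
  unfold pcu
  rw [max_eq_right (by linarith)]
  norm_num

omit hC in
/-- the convexity step -/
theorem _root_.Vale.Agent.P233.FF_sub_le {l k : ℝ} (hl : 0 ≤ l) (hk : 0 ≤ k) {w v : M →ₘ[m] ℝ}
    (hw : MemLp w 2 m) (hw' : MemLp w ∞ m) (hv : MemLp v 2 m) (hv' : MemLp v ∞ m) :
    FF l w - FF k v ≤ I (sqc l w * (w - v)) - (l - k) * I (sqc l w) := by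
  unfold FF
  have i1 := pcu_int hl hw hw'
  have i2 := pcu_int hk hv hv'
  have m1 : MemLp (sqc l w) 1 m := sqc_mem1 hl hw
  have m2 : MemLp (sqc l w * (w - v) : M →ₘ[m] ℝ) 1 m := mem_top_mul m1 (mem_sub hw' hv')
  rw [← integral_sub i1 i2]
  unfold I
  rw [← integral_const_mul, ← integral_sub (int_of_mem m2) ((int_of_mem m1).const_mul _)]
  refine integral_mono_ae (i1.sub i2) ((int_of_mem m2).sub ((int_of_mem m1).const_mul _)) ?_
  filter_upwards [mul_ae (sqc l w) (w - v), sub_ae w v, sqc_ae l w] with x h1 h2 h3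
  simp only [h1, h2, h3]
  exact pcu_conv k l (v x) (w x)

/-- `Γ(w, (w-l)₊²)` -/
theorem sqc_E {l : ℝ} (hl : 0 ≤ l) {w : M →ₘ[m] ℝ} (hw : w ∈ C.A) :
    Integrable (fun x => max (w x - l) 0 * C.Γ w w x) m ∧
      I (C.Γ w (sqc l w)) = 2 * ∫ x, max (w x - l) 0 * C.Γ w w x ∂m := by
  have h := hC.sqc_mem hl hw
  have h1 := h.2 w hw.1
  have h2 : MemLp (C.Γ (sqc l w) w) 1 m := hC.Γ_mem1 h.1.1 hw.1
  have h3 : Integrable (fun x => max (w x - l) 0 * C.Γ w w x) m := by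
    refine ((int_of_mem h2).const_mul 2⁻¹).congr ?_
    filter_upwards [h1] with x hx
    rw [hx]; ring
  refine ⟨h3, ?_⟩
  rw [hC.symm _ hw.1 _ h.1.1]
  unfold I
  rw [← integral_const_mul]
  refine integral_congr_ae ?_
  filter_upwards [h1] with x hx
  rw [hx]; ring

omit hC in
theorem _root_.Vale.Agent.P233.young3 {X G g Λ σ : ℝ} (hσ : 0 < σ) (hX : 0 ≤ X) (hG : 0 ≤ G)
    (hΛ : 0 ≤ Λ) (hg : g ^ 2 ≤ G * Λ) :
    X ^ 2 * |g| ≤ σ * (X * G) + 3 * Λ / (4 * σ) * (X ^ 3 / 3) := by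
  have h1 : X * |g| ≤ σ * G + Λ / (4 * σ) * X ^ 2 := by
    have h2 : (X * |g|) ^ 2 ≤ (σ * G + Λ / (4 * σ) * X ^ 2) ^ 2 := by
      have h3 : (X * |g|) ^ 2 = X ^ 2 * g ^ 2 := by rw [mul_pow, sq_abs]
      have h4 : X ^ 2 * g ^ 2 ≤ X ^ 2 * (G * Λ) := mul_le_mul_of_nonneg_left hg (sq_nonneg X)
      have h5 : (σ * G + Λ / (4 * σ) * X ^ 2) ^ 2 - X ^ 2 * (G * Λ)
          = (σ * G - Λ / (4 * σ) * X ^ 2) ^ 2 := by
        field_simp
        ring
      rw [h3]
      nlinarith [sq_nonneg (σ * G - Λ / (4 * σ) * X ^ 2)]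
    exact le_of_sq_le_sq h2 (by positivity)
  calc X ^ 2 * |g| = X * (X * |g|) := by ring
    _ ≤ X * (σ * G + Λ / (4 * σ) * X ^ 2) := mul_le_mul_of_nonneg_left h1 hX
    _ = σ * (X * G) + 3 * Λ / (4 * σ) * (X ^ 3 / 3) := by ring

/-- the transport term is absorbed by the dissipation -/
theorem sqc_transport {l : ℝ} (hl : 0 ≤ l) {w u : M →ₘ[m] ℝ} (hw : w ∈ C.A) (hu : u ∈ C.W)
    {Λ σ : ℝ} (hσ : 0 < σ) (hΛ0 : 0 ≤ Λ) (hΛ : ∀ᵐ x ∂m, C.Γ u u x ≤ Λ) :
    MemLp (sqc l w * C.Γ w u : M →ₘ[m] ℝ) 1 m ∧ |I (sqc l w * C.Γ w u)| ≤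
      σ * (∫ x, max (w x - l) 0 * C.Γ w w x ∂m) + 3 * Λ / (4 * σ) * FF l w := by
  have hs := hC.sqc_mem hl hw
  have m1 : MemLp (sqc l w * C.Γ w u : M →ₘ[m] ℝ) 1 m :=
    mem_mul_top hs.1.2 (hC.Γ_mem1 hw.1 hu)
  refine ⟨m1, ?_⟩
  have i1 := (hC.sqc_E hl hw).1
  have i2 := pcu_int hl (hC.memLp _ hw.1) hw.2
  unfold FF I
  rw [← integral_const_mul, ← integral_const_mul, ← integral_add (i1.const_mul _)
    (i2.const_mul _)]
  refine (abs_integral_le_integral_abs).trans ?_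
  refine integral_mono_ae (int_of_mem m1).abs ((i1.const_mul _).add (i2.const_mul _)) ?_
  filter_upwards [mul_ae (sqc l w) (C.Γ w u), sqc_ae l w, hC.Γ_cs_ae hw.1 hu,
    hC.Γ_nonneg_ae hw.1, hΛ] with x h1 h2 h3 h4 h5
  simp only [h1, h2]
  rw [abs_mul, abs_of_nonneg (psq_nonneg _ _)]
  unfold psq pcu
  exact young3 hσ (le_max_right _ _) h4 hΛ0 (h3.trans (mul_le_mul_of_nonneg_left h5 h4))

end IsDir

end cls

end Vale.Agent.P233
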