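import Vale.Agent.P233.H391.Max0

/-! The maximum principle scheme and the weak Bochner inequality `BE(K,N)` with `φ ∈ C.A`. -/

open MeasureTheory Filter Topology Set
open scoped ENNReal NNReal

namespace Vale.Agent.P233

variable {M : Type*} [MeasurableSpace M] {m : Measure M} {C : Calc m}

theorem FF_sub_le' {l k : ℝ} (hl : 0 ≤ l) (hk : 0 ≤ k) {w v : M →ₘ[m] ℝ} {Λ : ℝ}
    (hw : MemLp w 2 m) (hw' : ∀ᵐ x ∂m, |w x| ≤ Λ) (hv : MemLp v 2 m) (hv' : MemLp v ∞ m) :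
    FF l w - FF k v ≤ |Λ| * √(I (w ^ 2)) * √(I ((w - v) ^ 2)) + |l - k| * I (w ^ 2) := by
  have hwt : MemLp w ∞ m := mem_top_iff.2 ⟨Λ, hw'⟩
  have h := FF_sub_le hl hk hw hwt hv hv'
  have hs2 : MemLp (sqc l w) 2 m := by
    have h1 : MemLp (|Λ| • w : M →ₘ[m] ℝ) 2 m := mem_smul _ hw
    refine mem_of_le h1 ?_
    filter_upwards [sqc_ae l w, smul_ae w |Λ|, hw'] with x a1 a2 a3
    rw [a1, a2, abs_of_nonneg (psq_nonneg _ _), abs_mul, abs_abs]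
    refine (psq_le hl _).trans ?_
    rw [← sq_abs]
    nlinarith [abs_nonneg (w x), le_abs_self Λ]
  have h1 : |I (sqc l w * (w - v))| ≤ √(I (sqc l w ^ 2)) * √(I ((w - v) ^ 2)) :=
    I_abs_le hs2 (mem_sub hw hv)
  have h2 : I (sqc l w ^ 2) ≤ Λ ^ 2 * I (w ^ 2) := by
    rw [← I_smul]
    refine I_mono (mem_sq hs2) (mem_smul _ (mem_sq hw)) (le_iff_ae.2 ?_)
    filter_upwards [sq_ae (sqc l w), sqc_ae l w, smul_ae (w ^ 2) (Λ ^ 2), sq_ae w, hw']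
      with x a1 a2 a3 a4 a5
    rw [a1, a2, a3, a4]
    have b1 := psq_le hl (w x)
    have b2 := psq_nonneg l (w x)
    have b3 : w x ^ 2 ≤ Λ ^ 2 := by
      rw [← sq_abs (w x)]
      exact pow_le_pow_left₀ (abs_nonneg _) a5 2
    calc psq l (w x) ^ 2 ≤ (w x ^ 2) ^ 2 := pow_le_pow_left₀ b2 b1 2
      _ ≤ Λ ^ 2 * w x ^ 2 := by nlinarith [sq_nonneg (w x)]
  have h3 : √(I (sqc l w ^ 2)) ≤ |Λ| * √(I (w ^ 2)) := by
    refine (Real.sqrt_le_sqrt h2).trans ?_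
    rw [Real.sqrt_mul (sq_nonneg _), Real.sqrt_sq_eq_abs]
  have h4 : I (sqc l w) ≤ I (w ^ 2) := by
    refine I_mono (sqc_mem1 hl hw) (mem_sq hw) (le_iff_ae.2 ?_)
    filter_upwards [sqc_ae l w, sq_ae w] with x a1 a2
    rw [a1, a2]
    exact psq_le hl _
  have h5 : 0 ≤ I (sqc l w) := I_nonneg (sqc_nonneg l w)
  have h6 : -((l - k) * I (sqc l w)) ≤ |l - k| * I (w ^ 2) := by
    have : -((l - k) * I (sqc l w)) ≤ |l - k| * I (sqc l w) := by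
      nlinarith [neg_abs_le (l - k)]
    exact this.trans (mul_le_mul_of_nonneg_left h4 (abs_nonneg _))
  have h7 : I (sqc l w * (w - v)) ≤ |Λ| * √(I (w ^ 2)) * √(I ((w - v) ^ 2)) :=
    (le_abs_self _).trans (h1.trans (mul_le_mul_of_nonneg_right h3 (Real.sqrt_nonneg _)))
  linarith

theorem sqrt_I_le_add {w v : M →ₘ[m] ℝ} (hw : MemLp w 2 m) (hv : MemLp v 2 m) :
    √(I (w ^ 2)) ≤ √(I (v ^ 2)) + √(I ((w - v) ^ 2)) := by
  rw [I_sq_eq_norm hw, I_sq_eq_norm hv, I_sq_eq_norm (mem_sub hw hv)]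
  rw [Real.sqrt_sq (norm_nonneg _), Real.sqrt_sq (norm_nonneg _), Real.sqrt_sq (norm_nonneg _)]
  have h1 : (mem_sub hw hv).toLp = hw.toLp - hv.toLp := by
    rw [← MemLp.toLp_sub]
    exact MemLp.toLp_congr _ _ (sub_ae w v)
  rw [h1]
  have := norm_add_le hv.toLp (hw.toLp - hv.toLp)
  rwa [add_sub_cancel] at this

theorem FF_cont {J : Set ℝ} {t Λ : ℝ} {w : ℝ → M →ₘ[m] ℝ} {l : ℝ → ℝ} (ht : t ∈ J)
    (hw : ∀ r ∈ J, MemLp (w r) 2 m) (hΛ : ∀ r ∈ J, ∀ᵐ x ∂m, |w r x| ≤ Λ)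
    (hl : ∀ r ∈ J, 0 ≤ l r) (hlc : Tendsto l (𝓝[J] t) (𝓝 (l t)))
    (hc : Tendsto (fun r => I ((w r - w t) ^ 2)) (𝓝[J] t) (𝓝 0)) :
    Tendsto (fun r => FF (l r) (w r)) (𝓝[J] t) (𝓝 (FF (l t) (w t))) := by
  have hs : Tendsto (fun r => √(I ((w r - w t) ^ 2))) (𝓝[J] t) (𝓝 0) := by
    have := (Real.continuous_sqrt.tendsto 0).comp hc
    simpa [Function.comp_def] using this
  have hll : Tendsto (fun r => |l r - l t|) (𝓝[J] t) (𝓝 0) := by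
    have := (hlc.sub_const (l t)).abs
    simpa using this
  set N : ℝ → ℝ := fun r => √(I (w t ^ 2)) + √(I ((w r - w t) ^ 2)) with hN
  have hNt : Tendsto N (𝓝[J] t) (𝓝 (√(I (w t ^ 2)) + 0)) := hs.const_add _
  have hlim : Tendsto (fun r => |Λ| * N r * √(I ((w r - w t) ^ 2)) + |l r - l t| * N r ^ 2)
      (𝓝[J] t) (𝓝 (|Λ| * (√(I (w t ^ 2)) + 0) * 0 + 0 * (√(I (w t ^ 2)) + 0) ^ 2)) :=
    ((hNt.const_mul _).mul hs).add (hll.mul (hNt.pow 2))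
  rw [mul_zero, zero_mul, add_zero] at hlim
  rw [tendsto_iff_dist_tendsto_zero]
  refine squeeze_zero' (Eventually.of_forall fun r => dist_nonneg) ?_ hlim
  filter_upwards [self_mem_nhdsWithin] with r hr
  have b1 := sqrt_I_le_add (hw r hr) (hw t ht)
  have b0 : √(I (w t ^ 2)) ≤ N r := by
    simp only [hN]; linarith [Real.sqrt_nonneg (I ((w r - w t) ^ 2))]
  have hN0 : 0 ≤ N r := by simp only [hN]; positivity
  have c1 : I (w r ^ 2) ≤ N r ^ 2 := by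
    rw [← Real.sq_sqrt (I_sq_nonneg (w r))]
    exact pow_le_pow_left₀ (Real.sqrt_nonneg _) b1 2
  have c2 : I (w t ^ 2) ≤ N r ^ 2 := by
    rw [← Real.sq_sqrt (I_sq_nonneg (w t))]
    exact pow_le_pow_left₀ (Real.sqrt_nonneg _) b0 2
  have esw : I ((w t - w r) ^ 2) = I ((w r - w t) ^ 2) := by
    congr 1; ring
  have d1 := FF_sub_le' (hl r hr) (hl t ht) (hw r hr) (hΛ r hr) (hw t ht)
    (mem_top_iff.2 ⟨Λ, hΛ t ht⟩)
  have d2 := FF_sub_le' (hl t ht) (hl r hr) (hw t ht) (hΛ t ht) (hw r hr)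
    (mem_top_iff.2 ⟨Λ, hΛ r hr⟩)
  rw [esw, abs_sub_comm (l t) (l r)] at d2
  rw [Real.dist_eq, abs_le]
  have s0 := Real.sqrt_nonneg (I ((w r - w t) ^ 2))
  have g1 : |Λ| * √(I (w r ^ 2)) * √(I ((w r - w t) ^ 2)) ≤
      |Λ| * N r * √(I ((w r - w t) ^ 2)) :=
    mul_le_mul_of_nonneg_right (mul_le_mul_of_nonneg_left b1 (abs_nonneg _)) s0
  have g2 : |Λ| * √(I (w t ^ 2)) * √(I ((w r - w t) ^ 2)) ≤
      |Λ| * N r * √(I ((w r - w t) ^ 2)) :=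
    mul_le_mul_of_nonneg_right (mul_le_mul_of_nonneg_left b0 (abs_nonneg _)) s0
  have g3 := mul_le_mul_of_nonneg_left c1 (abs_nonneg (l r - l t))
  have g4 := mul_le_mul_of_nonneg_left c2 (abs_nonneg (l r - l t))
  constructor <;> linarith

/-- MAXIMUM PRINCIPLE, abstract scheme. -/
theorem max_scheme {w : ℝ → M →ₘ[m] ℝ} {l : ℝ → ℝ} {a b c Λ : ℝ}
    (hw : ∀ r ∈ Icc a b, MemLp (w r) 2 m) (hΛ : ∀ r ∈ Icc a b, ∀ᵐ x ∂m, |w r x| ≤ Λ)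
    (hc : ∀ t ∈ Icc a b, Tendsto (fun r => I ((w r - w t) ^ 2)) (𝓝[Icc a b] t) (𝓝 0))
    (hl : ∀ r ∈ Icc a b, 0 ≤ l r) (hlc : ContinuousOn l (Icc a b))
    (h0 : ∀ᵐ x ∂m, w a x ≤ l a)
    (hD : ∀ s ∈ Ioc a b, ∀ δ > 0, ∀ᶠ t in 𝓝[<] s,
      I (sqc (l s) (w s) * (w s - w t)) - (l s - l t) * I (sqc (l s) (w s))
        ≤ (c * FF (l s) (w s) + δ) * (s - t)) :
    ∀ t ∈ Icc a b, ∀ᵐ x ∂m, w t x ≤ l t := by
  intro t ht
  refine le_of_FF (hl t ht) (hw t ht) (mem_top_iff.2 ⟨Λ, hΛ t ht⟩) ?_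
  refine left_gronwall (F := fun r => FF (l r) (w r)) (a := a) (b := b) (c := c) ?_ ?_ ?_ t ht
  · intro r hr
    exact FF_cont hr hw hΛ hl (hlc r hr) (hc r hr)
  · exact (FF_eq_zero h0).le
  · intro s hs δ hδ
    have h1 : ∀ᶠ t in 𝓝[<] s, t ∈ Icc a b := by
      filter_upwards [Ioo_mem_nhdsLT hs.1] with t ht using ⟨ht.1.le, ht.2.le.trans hs.2⟩
    have hs' : s ∈ Icc a b := ⟨hs.1.le, hs.2⟩
    filter_upwards [hD s hs δ hδ, h1] with t h2 h3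
    exact (FF_sub_le (hl s hs') (hl t h3) (hw s hs') (mem_top_iff.2 ⟨Λ, hΛ s hs'⟩) (hw t h3)
      (mem_top_iff.2 ⟨Λ, hΛ t h3⟩)).trans h2

end Vale.Agent.P233
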