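import Vale.Agent.P233.H391.MaxUse

/-! A2, A2H: gradient bounds for `u' = σ Δu - ½|∇u|²` (curve form). -/

open MeasureTheory Filter Topology Set
open scoped ENNReal NNReal

namespace Vale.Agent.P233

variable {M : Type*} [MeasurableSpace M] {m : Measure M} {C : Calc m}

namespace IsGamma

variable (hC : IsGamma C)
include hC

/-- weak Bochner inequality with test function in `A` -/
theorem bochner_A {K : ℝ} (hB : C.BEi K) [SigmaFinite m] {f φ : M →ₘ[m] ℝ}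
    (hf : f ∈ C.Test) (hφ : φ ∈ C.A) (h0 : 0 ≤ φ) :
    I (φ * C.Γ f (C.lap f)) + K * I (φ * C.Γ f f) ≤ -((2 : ℝ)⁻¹ * I (C.Γ (C.Γ f f) φ)) := by
  have h := hC.bochner_weak hB hf hφ h0
  have hW := (hC.test_A hf).1
  have m1 : MemLp (φ * C.Γ f (C.lap f) : M →ₘ[m] ℝ) 1 m :=
    mem_mul_top hφ.2 (hC.toIsDir.Γ_mem1 hW (hC.test_lap_mem hf))
  have m2 : MemLp (φ * C.Γ f f : M →ₘ[m] ℝ) 1 m := mem_mul_top hφ.2 (hC.mem1 _ hW)
  rw [mul_add, mul_smul_comm, I_add m1 (mem_smul _ m2), I_smul] at h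
  exact h

/-- A2, the static part -/
theorem grad_static {K : ℝ} (hB : C.BEi K) [SigmaFinite m] {σ Λ : ℝ} (hσ : 0 < σ)
    {f : M →ₘ[m] ℝ} (hf : f ∈ C.TestI) (hΛ : ∀ᵐ x ∂m, C.Γ f f x ≤ Λ) {l l' : ℝ}
    (hl0 : 0 ≤ l) (hl' : 2 * σ * |K| * l ≤ l') :
    2 * I (sqc l (C.Γ f f) * C.Γ (σ • C.lap f - (2 : ℝ)⁻¹ • C.Γ f f) f)
      - l' * I (sqc l (C.Γ f f)) ≤ (3 * |Λ| / (4 * σ) + 6 * σ * |K|) * FF l (C.Γ f f) := by
  have hD := hC.toIsDir
  have hT : f ∈ C.Test := hf.1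
  have hA : f ∈ C.A := hC.test_A hT
  have hW : f ∈ C.W := hA.1
  have hLW : C.lap f ∈ C.W := hC.test_lap_mem hT
  have hwA : C.Γ f f ∈ C.A := hC.Γ_mem hB hT hT
  set w := C.Γ f f with hw
  set φ := sqc l w with hφ
  have hφA : φ ∈ C.A := (hD.sqc_mem hl0 hwA).1
  have hφ0 : 0 ≤ φ := sqc_nonneg _ _
  have hΛ' : ∀ᵐ x ∂m, w x ≤ |Λ| := hΛ.mono fun x hx => hx.trans (le_abs_self _)
  obtain ⟨hX, hE⟩ := hD.sqc_E hl0 hwA
  obtain ⟨m1, htr⟩ := hD.sqc_transport hl0 hwA hW hσ (abs_nonneg Λ) hΛ'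
  set X := ∫ x, max (w x - l) 0 * C.Γ w w x ∂m with hXdef
  have hBo := hC.bochner_A hB hT hφA hφ0
  have i1 : MemLp φ 1 m := sqc_mem1 hl0 (hC.memLp _ hwA.1)
  have hφI : 0 ≤ I φ := I_nonneg hφ0
  have m2 : MemLp (φ * w : M →ₘ[m] ℝ) 1 m := mem_mul_top hφA.2 (hC.mem1 _ hW)
  have m3 : MemLp (φ * C.Γ f (C.lap f) : M →ₘ[m] ℝ) 1 m :=
    mem_mul_top hφA.2 (hD.Γ_mem1 hW hLW)
  have m4 : MemLp (φ * C.Γ w f : M →ₘ[m] ℝ) 1 m := mem_mul_top hφA.2 (hD.Γ_mem1 hwA.1 hW)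
  have e2' : 0 ≤ I (φ * w) := by
    refine I_nonneg (nonneg_iff_ae.2 ?_)
    rw [nonneg_iff_ae] at hφ0
    filter_upwards [mul_ae φ w, hD.Γ_nonneg_ae hW, hφ0] with x a1 a2 a3
    rw [a1]; positivity
  have e3 : I (φ * w) = 3 * FF l w + l * I φ := I_sqc_mul hl0 (hC.memLp _ hwA.1) hwA.2
  have e4 : -(K * I (φ * w)) ≤ |K| * I (φ * w) := by
    have := mul_le_mul_of_nonneg_right (neg_le_abs K) e2'
    linarith
  have e6 : I (φ * C.Γ (σ • C.lap f - (2 : ℝ)⁻¹ • w) f)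
      = σ * I (φ * C.Γ f (C.lap f)) - (2 : ℝ)⁻¹ * I (φ * C.Γ w f) := by
    rw [hD.Γ_sub_left (hC.smul_mem _ _ hLW) (hC.smul_mem _ _ hwA.1) hW,
      hC.smul_left _ _ hLW _ hW, hC.smul_left _ _ hwA.1 _ hW, hC.symm _ hLW _ hW, mul_sub,
      mul_smul_comm, mul_smul_comm, I_sub (mem_smul _ m3) (mem_smul _ m4), I_smul, I_smul]
  have e8 := (abs_le.1 htr).1
  have e10 : 0 ≤ σ * X := by
    refine mul_nonneg hσ.le (integral_nonneg_of_ae ?_)
    filter_upwards [hD.Γ_nonneg_ae hwA.1] with x hx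
    exact mul_nonneg (le_max_right _ _) hx
  rw [e6]
  rw [hE] at hBo
  have e11 : 2 * σ * |K| * l * I φ ≤ l' * I φ := mul_le_mul_of_nonneg_right hl' hφI
  have e12 : 2 * σ * I (φ * C.Γ f (C.lap f)) ≤ 2 * σ * (|K| * I (φ * w) - X) :=
    mul_le_mul_of_nonneg_left (by linarith) (by positivity)
  have e13 : 2 * σ * (|K| * I (φ * w) - X)
      = 6 * σ * |K| * FF l w + 2 * σ * |K| * l * I φ - 2 * (σ * X) := by
    rw [e3]; ring
  linarith

/-- A2: `|∇u_t|² ≤ L e^{2σ|K|(t-a)}`, in the form of a supersolution. -/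
theorem visc_grad {K : ℝ} (hB : C.BEi K) [SigmaFinite m] {σ a b Λ : ℝ}
    {u : ℝ → M →ₘ[m] ℝ} (hu : C.Visc σ a b Λ u) {l l' : ℝ → ℝ}
    (hl0 : ∀ t ∈ Icc a b, 0 ≤ l t)
    (hld : ∀ t ∈ Icc a b, HasDerivWithinAt l (l' t) (Icc a b) t)
    (hl' : ∀ t ∈ Icc a b, 2 * σ * |K| * l t ≤ l' t)
    (h0 : ∀ᵐ x ∂m, C.Γ (u a) (u a) x ≤ l a) :
    ∀ t ∈ Icc a b, ∀ᵐ x ∂m, C.Γ (u t) (u t) x ≤ l t := by
  have hD := hC.toIsDir
  have hT : ∀ t ∈ Icc a b, u t ∈ C.Test := fun t ht => (hu.mem t ht).1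
  have hW : ∀ t ∈ Icc a b, u t ∈ C.W := fun t ht => (hC.test_A (hT t ht)).1
  have hwA : ∀ t ∈ Icc a b, C.Γ (u t) (u t) ∈ C.A := fun t ht => hC.Γ_mem hB (hT t ht) (hT t ht)
  have hvW : ∀ t ∈ Icc a b, σ • C.lap (u t) - (2 : ℝ)⁻¹ • C.Γ (u t) (u t) ∈ C.W := fun t ht =>
    hD.sub_mem (hC.smul_mem _ _ (hC.test_lap_mem (hT t ht))) (hC.smul_mem _ _ (hwA t ht).1)
  refine max_scheme (w := fun t => C.Γ (u t) (u t)) (l := l)
    (c := 3 * |Λ| / (4 * σ) + 6 * σ * |K|) (Λ := Λ)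
    (fun t ht => hC.memLp _ (hwA t ht).1) (fun t ht => ?_) (fun t ht => ?_) hl0
    (fun t ht => (hld t ht).continuousWithinAt) h0 ?_
  · filter_upwards [hu.grad t ht, hD.Γ_nonneg_ae (hW t ht)] with x h1 h2
    rwa [abs_of_nonneg h2]
  · exact hD.Γ_cont ht hW hu.grad (hD.W_cont ht hW (hvW t ht) (hu.deriv t ht))
  intro s hs δ hδ
  have hs' : s ∈ Icc a b := ⟨hs.1.le, hs.2⟩
  have hφA : sqc (l s) (C.Γ (u s) (u s)) ∈ C.A := (hD.sqc_mem (hl0 s hs') (hwA s hs')).1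
  refine left_asm hs (hld s hs') (I_nonneg (sqc_nonneg _ _)) (fun δ' hδ' => ?_)
    (hC.grad_static hB hu.hσ (hu.mem s hs') (hu.grad s hs') (hl0 s hs') (hl' s hs')) hδ
  have h1 := hD.left_Γ hs hW (hvW s hs') (hu.deriv s hs') (hC.memLp _ hφA.1) (hW s hs')
    (hC.test_Γ_top (hT s hs')) (δ := δ' / 2) (by positivity)
  have h3 : ∀ᶠ t in 𝓝[<] s, t ∈ Icc a b := by
    filter_upwards [Ioo_mem_nhdsLT hs.1] with t ht using ⟨ht.1.le, ht.2.le.trans hs.2⟩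
  filter_upwards [h1, h3] with t k1 k3
  set φ := sqc (l s) (C.Γ (u s) (u s)) with hφ
  set d := u s - u t with hd
  have hdW : d ∈ C.W := hD.sub_mem (hW s hs') (hW t k3)
  have f1 : C.Γ (u s) (u s) - C.Γ (u t) (u t) = (2 : ℝ) • C.Γ d (u s) - C.Γ d d := by
    rw [hd, hD.Γ_sub_left (hW s hs') (hW t k3) (hW s hs'), hD.Γ_sub_left (hW s hs') (hW t k3) hdW,
      hD.Γ_sub_right (hW s hs') (hW s hs') (hW t k3), hD.Γ_sub_right (hW t k3) (hW s hs') (hW t k3),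
      hC.symm _ (hW t k3) _ (hW s hs'), two_smul]
    abel
  have m4 : MemLp (φ * C.Γ d (u s) : M →ₘ[m] ℝ) 1 m :=
    mem_mul_top hφA.2 (hD.Γ_mem1 hdW (hW s hs'))
  have m5 : MemLp (φ * C.Γ d d : M →ₘ[m] ℝ) 1 m := mem_mul_top hφA.2 (hC.mem1 _ hdW)
  have f2 : 0 ≤ I (φ * C.Γ d d) := by
    refine I_nonneg (nonneg_iff_ae.2 ?_)
    have hφ0 : 0 ≤ φ := sqc_nonneg _ _
    rw [nonneg_iff_ae] at hφ0
    filter_upwards [mul_ae φ (C.Γ d d), hD.Γ_nonneg_ae hdW, hφ0] with x a1 a2 a3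
    rw [a1]; positivity
  show I (φ * (C.Γ (u s) (u s) - C.Γ (u t) (u t))) ≤ _
  rw [f1, mul_sub, mul_smul_comm, I_sub (mem_smul _ m4) m5, I_smul]
  have k1' := (abs_le.1 k1).2
  linarith

/-- A2H, the static part -/
theorem ham_static {K : ℝ} (hB : C.BEi K) [SigmaFinite m] {σ Λ : ℝ} (hσ : 0 < σ)
    {f : M →ₘ[m] ℝ} (hf : f ∈ C.TestI) (hΛ : ∀ᵐ x ∂m, C.Γ f f x ≤ Λ) {l s c : ℝ}
    (hl0 : 0 ≤ l) (hs : 0 ≤ s) (hc : 1 + 2 * σ * |K| * s ≤ c) :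
    2⁻¹ * I (sqc l ((s / 2) • C.Γ f f - c • f) * C.Γ f f)
      + s * I (sqc l ((s / 2) • C.Γ f f - c • f) * C.Γ (σ • C.lap f - (2 : ℝ)⁻¹ • C.Γ f f) f)
      - c * I (sqc l ((s / 2) • C.Γ f f - c • f) * (σ • C.lap f - (2 : ℝ)⁻¹ • C.Γ f f))
      ≤ 3 * |Λ| / (4 * σ) * FF l ((s / 2) • C.Γ f f - c • f) := by
  have hD := hC.toIsDir
  have hT : f ∈ C.Test := hf.1
  have hA : f ∈ C.A := hC.test_A hT
  have hW : f ∈ C.W := hA.1
  have hLW : C.lap f ∈ C.W := hC.test_lap_mem hT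
  have hGA : C.Γ f f ∈ C.A := hC.Γ_mem hB hT hT
  set G := C.Γ f f with hG
  set w := (s / 2) • G - c • f with hw
  have hwA : w ∈ C.A := hD.A_sub (hD.A_smul _ hGA) (hD.A_smul _ hA)
  set φ := sqc l w with hφ
  have hφA : φ ∈ C.A := (hD.sqc_mem hl0 hwA).1
  have hφ0 : 0 ≤ φ := sqc_nonneg _ _
  have hΛ' : ∀ᵐ x ∂m, C.Γ f f x ≤ |Λ| := hΛ.mono fun x hx => hx.trans (le_abs_self _)
  obtain ⟨hX, hE⟩ := hD.sqc_E hl0 hwA
  obtain ⟨m1, htr⟩ := hD.sqc_transport hl0 hwA hW hσ (abs_nonneg Λ) hΛ'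
  set X := ∫ x, max (w x - l) 0 * C.Γ w w x ∂m with hXdef
  have hBo := hC.bochner_A hB hT hφA hφ0
  have m2 : MemLp (φ * G : M →ₘ[m] ℝ) 1 m := mem_mul_top hφA.2 (hC.mem1 _ hW)
  have m3 : MemLp (φ * C.Γ f (C.lap f) : M →ₘ[m] ℝ) 1 m :=
    mem_mul_top hφA.2 (hD.Γ_mem1 hW hLW)
  have m4 : MemLp (φ * C.Γ G f : M →ₘ[m] ℝ) 1 m := mem_mul_top hφA.2 (hD.Γ_mem1 hGA.1 hW)
  have m5 : MemLp (φ * C.lap f : M →ₘ[m] ℝ) 1 m :=
    mem_mul_22 (hC.memLp _ hφA.1) (hC.memLp _ hLW)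
  have e2' : 0 ≤ I (φ * G) := by
    refine I_nonneg (nonneg_iff_ae.2 ?_)
    rw [nonneg_iff_ae] at hφ0
    filter_upwards [mul_ae φ G, hD.Γ_nonneg_ae hW, hφ0] with x a1 a2 a3
    rw [a1]; positivity
  have e4 : -(K * I (φ * G)) ≤ |K| * I (φ * G) := by
    have := mul_le_mul_of_nonneg_right (neg_le_abs K) e2'
    linarith
  have e5 : I (φ * (σ • C.lap f - (2 : ℝ)⁻¹ • G)) = σ * I (φ * C.lap f) - 2⁻¹ * I (φ * G) := by
    rw [mul_sub, mul_smul_comm, mul_smul_comm, I_sub (mem_smul _ m5) (mem_smul _ m2), I_smul,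
      I_smul]
  have e6 : I (φ * C.Γ (σ • C.lap f - (2 : ℝ)⁻¹ • G) f)
      = σ * I (φ * C.Γ f (C.lap f)) - (2 : ℝ)⁻¹ * I (φ * C.Γ G f) := by
    rw [hD.Γ_sub_left (hC.smul_mem _ _ hLW) (hC.smul_mem _ _ hGA.1) hW,
      hC.smul_left _ _ hLW _ hW, hC.smul_left _ _ hGA.1 _ hW, hC.symm _ hLW _ hW, mul_sub,
      mul_smul_comm, mul_smul_comm, I_sub (mem_smul _ m3) (mem_smul _ m4), I_smul, I_smul]
  have e7 : I (φ * C.lap f) = -I (C.Γ f φ) := by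
    have : I (C.Γ f φ) = -I (C.lap f * φ) := (hC.test_isLap hT).2.2 φ hφA.1
    rw [this, mul_comm φ, neg_neg]
  have e8 : I (C.Γ w φ) = s / 2 * I (C.Γ G φ) - c * I (C.Γ f φ) := by
    rw [hw, hD.Γ_sub_left (hC.smul_mem _ _ hGA.1) (hC.smul_mem _ _ hW) hφA.1,
      hC.smul_left _ _ hGA.1 _ hφA.1, hC.smul_left _ _ hW _ hφA.1,
      I_sub (mem_smul _ (hD.Γ_mem1 hGA.1 hφA.1)) (mem_smul _ (hD.Γ_mem1 hW hφA.1)), I_smul, I_smul]
  have e9 : I (φ * C.Γ w f) = s / 2 * I (φ * C.Γ G f) - c * I (φ * G) := by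
    rw [hw, hD.Γ_sub_left (hC.smul_mem _ _ hGA.1) (hC.smul_mem _ _ hW) hW,
      hC.smul_left _ _ hGA.1 _ hW, hC.smul_left _ _ hW _ hW, mul_sub, mul_smul_comm,
      mul_smul_comm, I_sub (mem_smul _ m4) (mem_smul _ m2), I_smul, I_smul]
  have e10 : 0 ≤ σ * X := by
    refine mul_nonneg hσ.le (integral_nonneg_of_ae ?_)
    filter_upwards [hD.Γ_nonneg_ae hwA.1] with x hx
    exact mul_nonneg (le_max_right _ _) hx
  have e11 := (abs_le.1 htr).1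
  rw [e5, e6, e7]
  rw [hE] at e8
  rw [e9] at e11
  -- s * σ * bochner
  have e12 : s * σ * I (φ * C.Γ f (C.lap f))
      ≤ s * σ * (|K| * I (φ * G) - 2⁻¹ * I (C.Γ G φ)) :=
    mul_le_mul_of_nonneg_left (by linarith) (by positivity)
  have e13 : (1 + 2 * σ * |K| * s) * I (φ * G) ≤ c * I (φ * G) :=
    mul_le_mul_of_nonneg_right hc e2'
  have e14 : σ * (2 * X) = σ * (s / 2 * I (C.Γ G φ) - c * I (C.Γ f φ)) := by rw [e8]
  nlinarith

omit hC in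
theorem _root_.Vale.Agent.P233.I_sq3_le {f g h : M →ₘ[m] ℝ} (hf : MemLp f 2 m) (hg : MemLp g 2 m)
    (hh : MemLp h 2 m) : I ((f + g + h) ^ 2) ≤ 3 * I (f ^ 2) + 3 * I (g ^ 2) + 3 * I (h ^ 2) := by
  rw [← I_smul, ← I_smul, ← I_smul, ← I_add (mem_smul _ (mem_sq hf)) (mem_smul _ (mem_sq hg)),
    ← I_add (mem_add (mem_smul _ (mem_sq hf)) (mem_smul _ (mem_sq hg))) (mem_smul _ (mem_sq hh))]
  refine I_mono (mem_sq (mem_add (mem_add hf hg) hh)) (mem_add (mem_add (mem_smul _ (mem_sq hf))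
    (mem_smul _ (mem_sq hg))) (mem_smul _ (mem_sq hh))) (le_iff_ae.2 ?_)
  filter_upwards [sq_ae (f + g + h), add_ae (f + g) h, add_ae f g,
    add_ae ((3 : ℝ) • f ^ 2 + (3 : ℝ) • g ^ 2) ((3 : ℝ) • h ^ 2),
    add_ae ((3 : ℝ) • f ^ 2) ((3 : ℝ) • g ^ 2), smul_ae (f ^ 2) 3, smul_ae (g ^ 2) 3,
    smul_ae (h ^ 2) 3, sq_ae f, sq_ae g, sq_ae h] with x a1 a2 a3 a4 a5 a6 a7 a8 a9 a10 a11
  rw [a1, a2, a3, a4, a5, a6, a7, a8, a9, a10, a11]
  nlinarith [sq_nonneg (f x - g x), sq_nonneg (f x - h x), sq_nonneg (g x - h x)]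

theorem ham_step {f g φ : M →ₘ[m] ℝ} (hf : f ∈ C.W) (hg : g ∈ C.W) (hφ : φ ∈ C.A) (hφ0 : 0 ≤ φ)
    {s t a c : ℝ} (hat : a ≤ t) :
    I (φ * (((s - a) / 2) • C.Γ f f - c • f - (((t - a) / 2) • C.Γ g g - c • g)))
      ≤ (s - t) / 2 * I (φ * C.Γ f f) + (t - a) * I (φ * C.Γ (f - g) f) - c * I (φ * (f - g)) := by
  have hD := hC.toIsDir
  set d := f - g with hd
  have hdW : d ∈ C.W := hD.sub_mem hf hg
  have g1 : C.Γ g g = C.Γ f f - (2 : ℝ) • C.Γ d f + C.Γ d d := by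
    rw [hd, hD.Γ_sub_left hf hg hf, hD.Γ_sub_left hf hg hdW, hD.Γ_sub_right hf hf hg,
      hD.Γ_sub_right hg hf hg, hC.symm _ hg _ hf, two_smul]
    abel
  have g2 : ((s - a) / 2) • C.Γ f f - c • f - (((t - a) / 2) • C.Γ g g - c • g)
      = ((s - t) / 2) • C.Γ f f + (t - a) • C.Γ d f - ((t - a) / 2) • C.Γ d d - c • d := by
    rw [g1]
    simp only [hd]
    module
  have m1 : MemLp (φ * C.Γ f f : M →ₘ[m] ℝ) 1 m := mem_mul_top hφ.2 (hC.mem1 _ hf)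
  have m2 : MemLp (φ * C.Γ d f : M →ₘ[m] ℝ) 1 m := mem_mul_top hφ.2 (hD.Γ_mem1 hdW hf)
  have m3 : MemLp (φ * C.Γ d d : M →ₘ[m] ℝ) 1 m := mem_mul_top hφ.2 (hC.mem1 _ hdW)
  have m4 : MemLp (φ * d : M →ₘ[m] ℝ) 1 m := mem_mul_22 (hC.memLp _ hφ.1) (hC.memLp _ hdW)
  have f2 : 0 ≤ I (φ * C.Γ d d) := by
    refine I_nonneg (nonneg_iff_ae.2 ?_)
    rw [nonneg_iff_ae] at hφ0
    filter_upwards [mul_ae φ (C.Γ d d), hD.Γ_nonneg_ae hdW, hφ0] with x a1 a2 a3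
    rw [a1]; positivity
  rw [g2, mul_sub, mul_sub, mul_add, mul_smul_comm, mul_smul_comm, mul_smul_comm, mul_smul_comm,
    I_sub (mem_sub (mem_add (mem_smul _ m1) (mem_smul _ m2)) (mem_smul _ m3)) (mem_smul _ m4),
    I_sub (mem_add (mem_smul _ m1) (mem_smul _ m2)) (mem_smul _ m3),
    I_add (mem_smul _ m1) (mem_smul _ m2), I_smul, I_smul, I_smul, I_smul]
  have f3 : 0 ≤ (t - a) / 2 * I (φ * C.Γ d d) := mul_nonneg (by linarith) f2
  linarith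

/-- A2H: `(t - a) |∇u_t|² ≤ 2 c (C₀ + u_t)`, `c = 1 + 2σ|K|(b-a)`, if `u_a ≥ -C₀`. -/
theorem visc_ham {K : ℝ} (hB : C.BEi K) [SigmaFinite m] {σ a b Λ : ℝ}
    {u : ℝ → M →ₘ[m] ℝ} (hu : C.Visc σ a b Λ u) {C₀ c : ℝ} (hC₀ : 0 ≤ C₀)
    (hc : 1 + 2 * σ * |K| * (b - a) ≤ c) (h0 : ∀ᵐ x ∂m, -C₀ ≤ u a x) :
    ∀ t ∈ Icc a b, ∀ᵐ x ∂m, (t - a) * C.Γ (u t) (u t) x ≤ 2 * c * (C₀ + u t x) := by
  intro t₁ ht₁
  have hab : a ≤ b := ht₁.1.trans ht₁.2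
  have hσ := hu.hσ
  have hc0 : 0 ≤ c := le_trans (by have := sub_nonneg.2 hab; positivity) hc
  have hD := hC.toIsDir
  have hT : ∀ t ∈ Icc a b, u t ∈ C.Test := fun t ht => (hu.mem t ht).1
  have hA : ∀ t ∈ Icc a b, u t ∈ C.A := fun t ht => hC.test_A (hT t ht)
  have hW : ∀ t ∈ Icc a b, u t ∈ C.W := fun t ht => (hA t ht).1
  have hGA : ∀ t ∈ Icc a b, C.Γ (u t) (u t) ∈ C.A := fun t ht => hC.Γ_mem hB (hT t ht) (hT t ht)
  have hwA : ∀ t ∈ Icc a b, ((t - a) / 2) • C.Γ (u t) (u t) - c • u t ∈ C.A := fun t ht =>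
    hD.A_sub (hD.A_smul _ (hGA t ht)) (hD.A_smul _ (hA t ht))
  have hvW : ∀ t ∈ Icc a b, σ • C.lap (u t) - (2 : ℝ)⁻¹ • C.Γ (u t) (u t) ∈ C.W := fun t ht =>
    hD.sub_mem (hC.smul_mem _ _ (hC.test_lap_mem (hT t ht))) (hC.smul_mem _ _ (hGA t ht).1)
  have key : ∀ t ∈ Icc a b, ∀ᵐ x ∂m,
      (((t - a) / 2) • C.Γ (u t) (u t) - c • u t : M →ₘ[m] ℝ) x ≤ c * C₀ := by
    refine max_scheme (w := fun t => ((t - a) / 2) • C.Γ (u t) (u t) - c • u t)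
      (l := fun _ => c * C₀) (c := 3 * |Λ| / (4 * σ)) (Λ := (b - a) / 2 * |Λ| + c * |Λ|)
      (fun t ht => hC.memLp _ (hwA t ht).1) (fun t ht => ?_) (fun t ht => ?_)
      (fun _ _ => by positivity) continuousOn_const ?_ ?_
    · filter_upwards [hu.grad t ht, hD.Γ_nonneg_ae (hW t ht), hu.bd t ht,
        sub_ae (((t - a) / 2) • C.Γ (u t) (u t)) (c • u t), smul_ae (C.Γ (u t) (u t)) ((t - a) / 2),
        smul_ae (u t) c] with x h1 h2 h3 h4 h5 h6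
      rw [h4, h5, h6]
      refine (abs_sub _ _).trans (add_le_add ?_ ?_)
      · rw [abs_mul, abs_of_nonneg h2, abs_of_nonneg (by linarith [ht.1])]
        exact mul_le_mul (by linarith [ht.2]) (h1.trans (le_abs_self _)) h2 (by linarith)
      · rw [abs_mul, abs_of_nonneg hc0]
        exact mul_le_mul_of_nonneg_left (h3.trans (le_abs_self _)) hc0
    · -- continuity
      have c1 := hD.W_cont ht hW (hvW t ht) (hu.deriv t ht)
      have c2 := hD.Γ_cont ht hW hu.grad c1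
      have c3 : Tendsto (fun r : ℝ => 3 * (((b - a) / 2) ^ 2 *
          I ((C.Γ (u r) (u r) - C.Γ (u t) (u t)) ^ 2)) + 3 * (((r - t) / 2) ^ 2 *
          I (C.Γ (u t) (u t) ^ 2)) + 3 * (c ^ 2 * C.nrm2 (u r - u t))) (𝓝[Icc a b] t) (𝓝 0) := by
        have k1 := (c2.const_mul (((b - a) / 2) ^ 2)).const_mul 3
        have k3 := (c1.const_mul (c ^ 2)).const_mul 3
        have k2 : Tendsto (fun r : ℝ => 3 * (((r - t) / 2) ^ 2 * I (C.Γ (u t) (u t) ^ 2)))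
            (𝓝[Icc a b] t) (𝓝 (3 * (((t - t) / 2) ^ 2 * I (C.Γ (u t) (u t) ^ 2)))) := by
          refine Tendsto.mono_left ?_ nhdsWithin_le_nhds
          apply Continuous.tendsto
          fun_prop
        have := (k1.add k2).add k3
        simpa using this
      refine squeeze_zero' (Eventually.of_forall fun r => I_sq_nonneg _) ?_ c3
      filter_upwards [self_mem_nhdsWithin] with r hr
      have e1 : ((r - a) / 2) • C.Γ (u r) (u r) - c • u r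
          - (((t - a) / 2) • C.Γ (u t) (u t) - c • u t)
          = ((r - a) / 2) • (C.Γ (u r) (u r) - C.Γ (u t) (u t)) + ((r - t) / 2) • C.Γ (u t) (u t)
            + (-c) • (u r - u t) := by
        have : (r - t) / 2 = (r - a) / 2 - (t - a) / 2 := by ring
        rw [this, sub_smul, smul_sub, neg_smul, smul_sub]
        abel
      rw [e1]
      refine (I_sq3_le (mem_smul _ (mem_sub (hC.memLp _ (hGA r hr).1) (hC.memLp _ (hGA t ht).1)))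
        (mem_smul _ (hC.memLp _ (hGA t ht).1))
        (mem_smul _ (mem_sub (hC.memLp _ (hW r hr)) (hC.memLp _ (hW t ht))))).trans ?_
      rw [smul_pow, smul_pow, smul_pow, I_smul, I_smul, I_smul, neg_sq]
      refine add_le_add (add_le_add ?_ le_rfl) ?_
      · refine mul_le_mul_of_nonneg_left (mul_le_mul_of_nonneg_right ?_ (I_sq_nonneg _)) (by norm_num)
        have h1 : 0 ≤ (r - a) / 2 := by linarith [hr.1]
        exact pow_le_pow_left₀ h1 (by linarith [hr.2]) 2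
      · refine mul_le_mul_of_nonneg_left (mul_le_mul_of_nonneg_left ?_ (sq_nonneg _)) (by norm_num)
        exact hC.I_sq_le_nrm2 (hD.sub_mem (hW r hr) (hW t ht))
    · filter_upwards [h0, sub_ae (((a - a) / 2) • C.Γ (u a) (u a)) (c • u a),
        smul_ae (C.Γ (u a) (u a)) ((a - a) / 2), smul_ae (u a) c] with x h1 h2 h3 h4
      rw [h2, h3, h4, sub_self, zero_div, zero_mul, zero_sub]
      nlinarith
    · intro s hs δ hδ
      have hs' : s ∈ Icc a b := ⟨hs.1.le, hs.2⟩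
      have hsa : 0 ≤ s - a := sub_nonneg.2 hs.1.le
      have hl0 : 0 ≤ c * C₀ := by positivity
      have hφA := (hD.sqc_mem hl0 (hwA s hs')).1
      have hst := hC.ham_static hB hσ (hu.mem s hs') (hu.grad s hs') (l := c * C₀) (c := c) hl0 hsa
        (by
          refine le_trans ?_ hc
          have h1 : s - a ≤ b - a := by linarith [hs.2]
          have h2 : 0 ≤ 2 * σ * |K| := by positivity
          linarith [mul_le_mul_of_nonneg_left h1 h2])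
      refine left_asm (l := fun _ => c * C₀) (l' := 0) (a₀ :=
        2⁻¹ * I (sqc (c * C₀) (((s - a) / 2) • C.Γ (u s) (u s) - c • u s) * C.Γ (u s) (u s))
        + (s - a) * I (sqc (c * C₀) (((s - a) / 2) • C.Γ (u s) (u s) - c • u s)
            * C.Γ (σ • C.lap (u s) - (2 : ℝ)⁻¹ • C.Γ (u s) (u s)) (u s))
        - c * I (sqc (c * C₀) (((s - a) / 2) • C.Γ (u s) (u s) - c • u s)
            * (σ • C.lap (u s) - (2 : ℝ)⁻¹ • C.Γ (u s) (u s)))) hs (hasDerivWithinAt_const _ _ _)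
        (I_nonneg (sqc_nonneg _ _)) (fun δ' hδ' => ?_) (by rw [zero_mul, sub_zero]; exact hst) hδ
      clear hst
      set φ := sqc (c * C₀) (((s - a) / 2) • C.Γ (u s) (u s) - c • u s) with hφ
      set v := σ • C.lap (u s) - (2 : ℝ)⁻¹ • C.Γ (u s) (u s) with hv
      set δ₁ := δ' / (2 * (b - a + c + 1)) with hδ₁
      have hba : 0 ≤ b - a := sub_nonneg.2 hab
      have hδ₁0 : 0 < δ₁ := by positivity
      have hδ₁e : (b - a + c) * δ₁ ≤ δ' / 2 := by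
        have e1 : (b - a + c + 1) * δ₁ = δ' / 2 := by
          rw [hδ₁]
          field_simp
        rw [← e1]
        exact mul_le_mul_of_nonneg_right (by linarith) hδ₁0.le
      have h1 := hD.left_Γ hs hW (hvW s hs') (hu.deriv s hs') (hC.memLp _ hφA.1) (hW s hs')
        (hC.test_Γ_top (hT s hs')) hδ₁0
      have h2 := hD.left_I hs hW (hvW s hs') (hu.deriv s hs') (hC.memLp _ hφA.1) hδ₁0
      have h3 : ∀ᶠ t in 𝓝[<] s, t ∈ Icc a b := by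
        filter_upwards [Ioo_mem_nhdsLT hs.1] with t ht using ⟨ht.1.le, ht.2.le.trans hs.2⟩
      have h4 : ∀ᶠ t in 𝓝[<] s, (s - t) * |I (φ * C.Γ v (u s))| < δ' / 2 := by
        have : Tendsto (fun t : ℝ => (s - t) * |I (φ * C.Γ v (u s))|) (𝓝[<] s)
            (𝓝 ((s - s) * |I (φ * C.Γ v (u s))|)) := by
          refine Tendsto.mono_left ?_ nhdsWithin_le_nhds
          apply Continuous.tendsto
          fun_prop
        rw [sub_self, zero_mul] at this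
        exact this.eventually_lt_const (by positivity)
      filter_upwards [h1, h2, h3, h4, self_mem_nhdsWithin] with t k1 k2 k3 k5 k4
      have k4' : 0 < s - t := sub_pos.2 k4
      refine (hC.ham_step (hW s hs') (hW t k3) hφA (sqc_nonneg _ _) k3.1).trans ?_
      have k1' := (abs_le.1 k1).2
      have k2' := (abs_le.1 k2).1
      set p := I (φ * C.Γ v (u s)) with hp
      set q := I (φ * v) with hq
      have hta : 0 ≤ t - a := sub_nonneg.2 k3.1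
      have k6 : (t - a) * I (φ * C.Γ (u s - u t) (u s)) ≤ (t - a) * ((s - t) * p + δ₁ * (s - t)) :=
        mul_le_mul_of_nonneg_left (by linarith) hta
      have k7 : c * ((s - t) * q - δ₁ * (s - t)) ≤ c * I (φ * (u s - u t)) :=
        mul_le_mul_of_nonneg_left (by linarith) hc0
      have k8 : -((s - t) * ((s - t) * p)) ≤ (s - t) * (δ' / 2) := by
        have : -((s - t) * p) ≤ (s - t) * |p| := by
          have := mul_le_mul_of_nonneg_left (neg_le_abs p) k4'.le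
          linarith
        have := mul_le_mul_of_nonneg_left (this.trans k5.le) k4'.le
        linarith
      have k9 : (t - a + c) * δ₁ * (s - t) ≤ δ' / 2 * (s - t) := by
        refine mul_le_mul_of_nonneg_right (le_trans ?_ hδ₁e) k4'.le
        exact mul_le_mul_of_nonneg_right (by linarith [k3.2]) hδ₁0.le
      have k10 : (t - a) * ((s - t) * p + δ₁ * (s - t)) = (s - t) * ((s - a) * p)
          - (s - t) * ((s - t) * p) + (t - a) * δ₁ * (s - t) := by ring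
      have k11 : (s - t) * (2⁻¹ * I (φ * C.Γ (u s) (u s)) + (s - a) * p - c * q)
          = (s - t) / 2 * I (φ * C.Γ (u s) (u s)) + (s - t) * ((s - a) * p) - (s - t) * (c * q) := by
        ring
      rw [k11]
      linarith
  filter_upwards [key t₁ ht₁, sub_ae (((t₁ - a) / 2) • C.Γ (u t₁) (u t₁)) (c • u t₁),
    smul_ae (C.Γ (u t₁) (u t₁)) ((t₁ - a) / 2), smul_ae (u t₁) c] with x h1 h2 h3 h4
  rw [h2, h3, h4] at h1
  linarith

end IsGamma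

end Vale.Agent.P233
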