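import Vale.Agent.P233.H391.Max1

/-! A2, A3: gradient and Laplacian bounds for `u' = σ Δu - ½|∇u|²`. -/

open MeasureTheory Filter Topology Set
open scoped ENNReal NNReal

namespace Vale.Agent.P233

variable {M : Type*} [MeasurableSpace M] {m : Measure M} {C : Calc m}

namespace IsDir

variable (hC : IsDir C)
include hC

/-- a functional bounded in the `W`-norm, evaluated along a curve with a `W`-derivative -/
theorem left_conv {u : ℝ → M →ₘ[m] ℝ} {v : M →ₘ[m] ℝ} {a b s : ℝ} (hs : s ∈ Ioc a b)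
    (hu : ∀ r ∈ Icc a b, u r ∈ C.W) (hv : v ∈ C.W)
    (hd : Tendsto (fun r => C.nrm2 ((r - s)⁻¹ • (u r - u s) - v)) (𝓝[Icc a b \ {s}] s) (𝓝 0))
    {ℓ : (M →ₘ[m] ℝ) → ℝ} {K : ℝ}
    (hadd : ∀ f ∈ C.W, ∀ g ∈ C.W, ℓ (f - g) = ℓ f - ℓ g)
    (hsmul : ∀ c : ℝ, ∀ f ∈ C.W, ℓ (c • f) = c * ℓ f)
    (hb : ∀ f ∈ C.W, |ℓ f| ≤ K * √(C.nrm2 f)) {δ : ℝ} (hδ : 0 < δ) :
    ∀ᶠ t in 𝓝[<] s, |ℓ (u s - u t) - (s - t) * ℓ v| ≤ δ * (s - t) := by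
  have hle : 𝓝[<] s ≤ 𝓝[Icc a b \ {s}] s := by
    rw [← nhdsWithin_Ioo_eq_nhdsLT hs.1]
    exact nhdsWithin_mono _ fun t ht => ⟨⟨ht.1.le, ht.2.le.trans hs.2⟩, ne_of_lt ht.2⟩
  have h1 : Tendsto (fun r => K * √(C.nrm2 ((r - s)⁻¹ • (u r - u s) - v))) (𝓝[<] s) (𝓝 0) := by
    have := ((Real.continuous_sqrt.tendsto 0).comp (hd.mono_left hle)).const_mul K
    simpa [Function.comp_def] using this
  have hsJ : s ∈ Icc a b := ⟨hs.1.le, hs.2⟩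
  filter_upwards [h1.eventually (gt_mem_nhds hδ), Ioo_mem_nhdsLT hs.1] with t h2 h3
  have htJ : t ∈ Icc a b := ⟨h3.1.le, h3.2.le.trans hs.2⟩
  have hst : 0 < s - t := sub_pos.2 h3.2
  have hdW : u t - u s ∈ C.W := hC.sub_mem (hu t htJ) (hu s hsJ)
  have hqW : (t - s)⁻¹ • (u t - u s) ∈ C.W := hC.smul_mem _ _ hdW
  have h4 := hb _ (hC.sub_mem hqW hv)
  have h5 : ℓ ((t - s)⁻¹ • (u t - u s) - v) = (s - t)⁻¹ * ℓ (u s - u t) - ℓ v := by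
    rw [hadd _ hqW _ hv, hsmul _ _ hdW, hadd _ (hu t htJ) _ (hu s hsJ),
      hadd _ (hu s hsJ) _ (hu t htJ)]
    rw [show (t - s)⁻¹ = -(s - t)⁻¹ by rw [← neg_sub s t, inv_neg]]
    ring
  rw [h5] at h4
  have h6 : ℓ (u s - u t) - (s - t) * ℓ v = (s - t) * ((s - t)⁻¹ * ℓ (u s - u t) - ℓ v) := by
    field_simp
  rw [h6, abs_mul, abs_of_pos hst, mul_comm δ]
  exact mul_le_mul_of_nonneg_left (h4.trans h2.le) hst.le

theorem W_cont {u : ℝ → M →ₘ[m] ℝ} {v : M →ₘ[m] ℝ} {J : Set ℝ} {s : ℝ} (hs : s ∈ J)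
    (hu : ∀ r ∈ J, u r ∈ C.W) (hv : v ∈ C.W)
    (hd : Tendsto (fun r => C.nrm2 ((r - s)⁻¹ • (u r - u s) - v)) (𝓝[J \ {s}] s) (𝓝 0)) :
    Tendsto (fun r => C.nrm2 (u r - u s)) (𝓝[J] s) (𝓝 0) := by
  have e1 : Tendsto (fun r : ℝ => (r - s) ^ 2) (𝓝[J \ {s}] s) (𝓝 0) := by
    have : Tendsto (fun r : ℝ => (r - s) ^ 2) (𝓝 s) (𝓝 ((s - s) ^ 2)) := by
      apply Continuous.tendsto; fun_prop
    rw [sub_self, zero_pow two_ne_zero] at this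
    exact this.mono_left nhdsWithin_le_nhds
  have e2 : Tendsto (fun r => (r - s) ^ 2 * (2 * C.nrm2 ((r - s)⁻¹ • (u r - u s) - v)
      + 2 * C.nrm2 v)) (𝓝[J \ {s}] s) (𝓝 (0 * (2 * 0 + 2 * C.nrm2 v))) :=
    e1.mul ((hd.const_mul 2).add_const _)
  rw [zero_mul] at e2
  have e3 : Tendsto (fun r => C.nrm2 (u r - u s)) (𝓝[J \ {s}] s) (𝓝 0) := by
    refine squeeze_zero' ?_ ?_ e2
    · filter_upwards [self_mem_nhdsWithin] with r hr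
      exact hC.nrm2_nonneg (hC.sub_mem (hu r hr.1) (hu s hs))
    · filter_upwards [self_mem_nhdsWithin] with r hr
      have hne : r - s ≠ 0 := sub_ne_zero.2 hr.2
      have hdW : u r - u s ∈ C.W := hC.sub_mem (hu r hr.1) (hu s hs)
      have hqW : (r - s)⁻¹ • (u r - u s) ∈ C.W := hC.smul_mem _ _ hdW
      have f1 := hC.nrm2_add_le (hC.sub_mem hqW hv) hv
      rw [sub_add_cancel] at f1
      have f2 : C.nrm2 ((r - s)⁻¹ • (u r - u s)) = ((r - s)⁻¹) ^ 2 * C.nrm2 (u r - u s) := by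
        unfold Calc.nrm2
        have g1 : ((r - s)⁻¹ • (u r - u s)) ^ 2 = (((r - s)⁻¹) ^ 2) • (u r - u s) ^ 2 := by
          rw [smul_pow]
        rw [g1, I_smul, hC.E_smul _ hdW]
        ring
      rw [f2] at f1
      have f3 : C.nrm2 (u r - u s) = (r - s) ^ 2 * (((r - s)⁻¹) ^ 2 * C.nrm2 (u r - u s)) := by
        field_simp
      rw [f3]
      exact mul_le_mul_of_nonneg_left f1 (sq_nonneg _)
  have e4 : J = insert s (J \ {s}) := by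
    rw [insert_sdiff_singleton, insert_eq_of_mem hs]
  rw [e4, nhdsWithin_insert]
  refine Tendsto.sup ?_ e3
  rw [tendsto_pure_left]
  intro U hU
  have : C.nrm2 (u s - u s) = 0 := by
    rw [sub_self]
    unfold Calc.nrm2
    have h0 := hC.zero_mem
    have h1 : C.Γ 0 0 = 0 := hC.Γ_zero_left h0
    rw [h1]; simp [I_zero]
  rw [this]
  exact mem_of_mem_nhds hU

end IsDir

namespace IsGamma

variable (hC : IsGamma C)
include hC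

/-- weak Bochner inequality `BE(K,N)` tested with `φ ∈ C.A` -/
theorem bochner_N {K N : ℝ} (hN : 0 < N) (hB : C.BE K N) [SigmaFinite m] {f φ : M →ₘ[m] ℝ}
    (hf : f ∈ C.Test) (hφ : φ ∈ C.A) (h0 : 0 ≤ φ) :
    I (φ * C.Γ f (C.lap f)) + K * I (φ * C.Γ f f) + N⁻¹ * I (φ * C.lap f ^ 2)
      ≤ -((2 : ℝ)⁻¹ * I (C.Γ (C.Γ f f) φ)) := by
  have hB' : C.BEi K := hC.bei hN hB
  have hD := hC.toIsDir
  have hfA := hC.test_A hf
  have hfL := hC.test_isLap hf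
  have hfLW := hC.test_lap_mem hf
  have hv := (hC.Γ_mem hB' hf hf).1
  have hφ2 := hC.memLp φ hφ.1
  obtain ⟨Kφ, hK⟩ := mem_top_iff.1 hφ.2
  have hl : ∀ n : ℕ, (0 : ℝ) < ((n : ℝ) + 1)⁻¹ := fun n => by positivity
  set G := C.Γ f (C.lap f) + K • C.Γ f f + N⁻¹ • C.lap f ^ 2 with hG
  have hG1 : MemLp G 1 m :=
    mem_add (hC.bracket_mem K hfA.1 hfLW) (mem_smul _ (mem_sq (hC.memLp _ hfLW)))
  set u : ℕ → M →ₘ[m] ℝ := fun n => C.J ((n : ℝ) + 1)⁻¹ φ with hu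
  have huW : ∀ n, u n ∈ C.W := fun n => hD.J_mem (hl n) hφ2
  have huK : ∀ n, ∀ᵐ x ∂m, |u n x| ≤ Kφ := fun n => hD.J_bdd (hl n) hφ2 hK
  have hut : ∀ n, MemLp (u n) ∞ m := fun n => mem_top_iff.2 ⟨Kφ, huK n⟩
  have hlimW : Tendsto (fun n => C.nrm2 (u n - φ)) atTop (𝓝 0) := hD.J_tendsto_W hφ.1
  have key : ∀ n, I (u n * G) ≤ -((2 : ℝ)⁻¹ * I (C.Γ (C.Γ f f) (u n))) := by
    intro n
    have hL := hD.J_isLap (hl n) hφ2
    have h1 := hB f (C.lap f) (u n) _ hfL hfLW hL (hD.J_nonneg (hl n) hφ2 h0) (hut n)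
      (mem_smul _ (mem_sub (hut n) hφ.2))
    have h2 : I (C.Γ (u n) (C.Γ f f)) =
        -I ((((n : ℝ) + 1)⁻¹)⁻¹ • (u n - φ) * C.Γ f f) := hL.2.2 _ hv
    rw [hD.symm _ (huW n) _ hv, mul_comm _ (C.Γ f f)] at h2
    rw [h2]
    have h3 : I (u n * G) ≤ I ((2 : ℝ)⁻¹ • (C.Γ f f * ((((n : ℝ) + 1)⁻¹)⁻¹ • (u n - φ)))) := h1
    rw [I_smul] at h3
    linarith only [h3]
  obtain ⟨ns, hns, hae⟩ := exists_subseq_of_I_sq (fun n => hC.memLp _ (huW n)) hφ2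
    (hD.tendsto_I_sq_of_nrm2 huW hφ.1 hlimW)
  have l1 : Tendsto (fun n => I (u (ns n) * G)) atTop (𝓝 (I (φ * G))) := by
    refine I_tendsto_of_dominated (G := fun x => Kφ * |G x|) ((int_of_mem hG1).abs.const_mul Kφ)
      (fun n => ?_) ?_
    · filter_upwards [mul_ae (u (ns n)) G, huK (ns n)] with x a1 a2
      rw [a1, abs_mul]
      exact mul_le_mul_of_nonneg_right a2 (abs_nonneg _)
    · filter_upwards [ae_all_iff.2 fun n => mul_ae (u (ns n)) G, mul_ae φ G, hae] with x a1 a2 a3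
      simp_rw [a1, a2]
      exact a3.mul_const _
  have l2 : Tendsto (fun n => I (C.Γ (C.Γ f f) (u n))) atTop (𝓝 (I (C.Γ (C.Γ f f) φ))) := by
    rw [tendsto_iff_dist_tendsto_zero]
    have h1 := hD.tendsto_E_of_nrm2 huW hφ.1 hlimW
    have h2 : Tendsto (fun n => Real.sqrt (I (C.Γ (C.Γ f f) (C.Γ f f))) *
        Real.sqrt (I (C.Γ (u n - φ) (u n - φ)))) atTop (𝓝 0) := by
      have := ((Real.continuous_sqrt.tendsto 0).comp h1).const_mul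
        (Real.sqrt (I (C.Γ (C.Γ f f) (C.Γ f f))))
      simpa [Function.comp_def] using this
    refine squeeze_zero (fun n => dist_nonneg) (fun n => ?_) h2
    rw [Real.dist_eq, ← I_sub (hD.Γ_mem1 hv (huW n)) (hD.Γ_mem1 hv hφ.1),
      ← hD.Γ_sub_right hv (huW n) hφ.1]
    exact hD.E_abs_le hv (hD.sub_mem (huW n) hφ.1)
  have l3 : Tendsto (fun n => -((2 : ℝ)⁻¹ * I (C.Γ (C.Γ f f) (u (ns n))))) atTop
      (𝓝 (-((2 : ℝ)⁻¹ * I (C.Γ (C.Γ f f) φ)))) :=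
    ((l2.comp hns.tendsto_atTop).const_mul _).neg
  have hfin := le_of_tendsto_of_tendsto' l1 l3 fun n => key (ns n)
  refine le_trans (le_of_eq ?_) hfin
  have m1 : MemLp (φ * C.Γ f (C.lap f) : M →ₘ[m] ℝ) 1 m :=
    mem_mul_top hφ.2 (hD.Γ_mem1 hfA.1 hfLW)
  have m2 : MemLp (φ * C.Γ f f : M →ₘ[m] ℝ) 1 m := mem_mul_top hφ.2 (hD.Γ_mem1 hfA.1 hfA.1)
  have m3 : MemLp (φ * C.lap f ^ 2 : M →ₘ[m] ℝ) 1 m :=
    mem_mul_top hφ.2 (mem_sq (hC.memLp _ hfLW))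
  rw [← I_smul, ← I_smul, ← I_add m1 (mem_smul _ m2), ← I_add (mem_add m1 (mem_smul _ m2))
    (mem_smul _ m3)]
  congr 1
  rw [hG]
  simp only [mul_add, mul_smul_comm]

end IsGamma

end Vale.Agent.P233
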