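import Vale.Agent.P233.H391.MaxLap

/-! A2, A2H, A3: bounds for `u' = σ Δu - ½|∇u|²` (curve form). -/

open MeasureTheory Filter Topology Set
open scoped ENNReal NNReal

namespace Vale.Agent.P233

variable {M : Type*} [MeasurableSpace M] {m : Measure M} {C : Calc m}

theorem I_sqc_mul {l : ℝ} (hl : 0 ≤ l) {w : M →ₘ[m] ℝ} (hw : MemLp w 2 m) (hw' : MemLp w ∞ m) :
    I (sqc l w * w) = 3 * FF l w + l * I (sqc l w) := by
  unfold FF I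
  have i1 := pcu_int hl hw hw'
  have m1 := int_of_mem (sqc_mem1 hl hw)
  rw [← integral_const_mul, ← integral_const_mul, ← integral_add (i1.const_mul _)
    (m1.const_mul _)]
  refine integral_congr_ae ?_
  filter_upwards [mul_ae (sqc l w) w, sqc_ae l w] with x h1 h2
  rw [h1, h2]
  unfold psq pcu
  rcases le_total (w x - l) 0 with h | h
  · rw [max_eq_right h]; ring
  · rw [max_eq_left h]; ring

namespace IsDir

variable (hC : IsDir C)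
include hC

theorem sqrt_E_le_nrm {f : M →ₘ[m] ℝ} : √(I (C.Γ f f)) ≤ √(C.nrm2 f) :=
  Real.sqrt_le_sqrt (hC.E_le_nrm2 f)

/-- `f ↦ I (Γ f φ)` along a curve -/
theorem left_E {u : ℝ → M →ₘ[m] ℝ} {v φ : M →ₘ[m] ℝ} {a b s : ℝ} (hs : s ∈ Ioc a b)
    (hu : ∀ r ∈ Icc a b, u r ∈ C.W) (hv : v ∈ C.W)
    (hd : Tendsto (fun r => C.nrm2 ((r - s)⁻¹ • (u r - u s) - v)) (𝓝[Icc a b \ {s}] s) (𝓝 0))
    (hφ : φ ∈ C.W) {δ : ℝ} (hδ : 0 < δ) :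
    ∀ᶠ t in 𝓝[<] s, |I (C.Γ (u s - u t) φ) - (s - t) * I (C.Γ v φ)| ≤ δ * (s - t) := by
  refine hC.left_conv hs hu hv hd (ℓ := fun f => I (C.Γ f φ)) (K := √(I (C.Γ φ φ)))
    (fun f hf g hg => ?_) (fun c f hf => ?_) (fun f hf => ?_) hδ
  · rw [hC.Γ_sub_left hf hg hφ, I_sub (hC.Γ_mem1 hf hφ) (hC.Γ_mem1 hg hφ)]
  · rw [hC.smul_left _ _ hf _ hφ, I_smul]
  · refine (hC.E_abs_le hf hφ).trans ?_
    rw [mul_comm]
    exact mul_le_mul_of_nonneg_left hC.sqrt_E_le_nrm (Real.sqrt_nonneg _)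

/-- `f ↦ I (φ f)` along a curve -/
theorem left_I {u : ℝ → M →ₘ[m] ℝ} {v φ : M →ₘ[m] ℝ} {a b s : ℝ} (hs : s ∈ Ioc a b)
    (hu : ∀ r ∈ Icc a b, u r ∈ C.W) (hv : v ∈ C.W)
    (hd : Tendsto (fun r => C.nrm2 ((r - s)⁻¹ • (u r - u s) - v)) (𝓝[Icc a b \ {s}] s) (𝓝 0))
    (hφ : MemLp φ 2 m) {δ : ℝ} (hδ : 0 < δ) :
    ∀ᶠ t in 𝓝[<] s, |I (φ * (u s - u t)) - (s - t) * I (φ * v)| ≤ δ * (s - t) := by
  refine hC.left_conv hs hu hv hd (ℓ := fun f => I (φ * f)) (K := √(I (φ ^ 2)))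
    (fun f hf g hg => ?_) (fun c f hf => ?_) (fun f hf => ?_) hδ
  · rw [mul_sub, I_sub (mem_mul_22 hφ (hC.memLp _ hf)) (mem_mul_22 hφ (hC.memLp _ hg))]
  · rw [mul_smul_comm, I_smul]
  · refine (I_abs_le hφ (hC.memLp _ hf)).trans ?_
    exact mul_le_mul_of_nonneg_left (Real.sqrt_le_sqrt (hC.I_sq_le_nrm2 hf)) (Real.sqrt_nonneg _)

theorem I_Γ_sq_le' {f g : M →ₘ[m] ℝ} {Λ : ℝ} (hf : f ∈ C.W) (hg : g ∈ C.W)
    (hΛ : ∀ᵐ x ∂m, C.Γ g g x ≤ Λ) (hgt : MemLp (C.Γ g g) ∞ m) :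
    I (C.Γ f g ^ 2) ≤ Λ * I (C.Γ f f) := by
  rw [← I_smul]
  have h2 : MemLp (C.Γ f g) 2 m := by
    rw [hC.symm _ hf _ hg]
    exact hC.Γ_mem2 hg hgt hf
  refine I_mono (mem_sq h2) (mem_smul _ (hC.mem1 _ hf)) (le_iff_ae.2 ?_)
  filter_upwards [sq_ae (C.Γ f g), smul_ae (C.Γ f f) Λ, hC.Γ_cs_ae hf hg, hΛ,
    hC.Γ_nonneg_ae hf] with x a1 a2 a3 a4 a5
  rw [a1, a2]
  nlinarith

/-- `f ↦ I (φ Γ f g)` along a curve, `g` Lipschitz -/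
theorem left_Γ {u : ℝ → M →ₘ[m] ℝ} {v φ g : M →ₘ[m] ℝ} {a b s : ℝ} (hs : s ∈ Ioc a b)
    (hu : ∀ r ∈ Icc a b, u r ∈ C.W) (hv : v ∈ C.W)
    (hd : Tendsto (fun r => C.nrm2 ((r - s)⁻¹ • (u r - u s) - v)) (𝓝[Icc a b \ {s}] s) (𝓝 0))
    (hφ : MemLp φ 2 m) (hg : g ∈ C.W) (hgt : MemLp (C.Γ g g) ∞ m) {δ : ℝ} (hδ : 0 < δ) :
    ∀ᶠ t in 𝓝[<] s,
      |I (φ * C.Γ (u s - u t) g) - (s - t) * I (φ * C.Γ v g)| ≤ δ * (s - t) := by
  obtain ⟨Λ, hΛ⟩ := mem_top_iff.1 hgt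
  have hΛ' : ∀ᵐ x ∂m, C.Γ g g x ≤ Λ := hΛ.mono fun x hx => (le_abs_self _).trans hx
  have hm : ∀ f ∈ C.W, MemLp (C.Γ f g) 2 m := fun f hf => by
    rw [hC.symm _ hf _ hg]
    exact hC.Γ_mem2 hg hgt hf
  refine hC.left_conv hs hu hv hd (ℓ := fun f => I (φ * C.Γ f g)) (K := √(I (φ ^ 2)) * √Λ)
    (fun f hf k hk => ?_) (fun c f hf => ?_) (fun f hf => ?_) hδ
  · rw [hC.Γ_sub_left hf hk hg, mul_sub,
      I_sub (mem_mul_22 hφ (hm f hf)) (mem_mul_22 hφ (hm k hk))]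
  · rw [hC.smul_left _ _ hf _ hg, mul_smul_comm, I_smul]
  · refine (I_abs_le hφ (hm f hf)).trans ?_
    rw [mul_assoc]
    refine mul_le_mul_of_nonneg_left ?_ (Real.sqrt_nonneg _)
    refine (Real.sqrt_le_sqrt (hC.I_Γ_sq_le' hf hg hΛ' hgt)).trans ?_
    rw [Real.sqrt_mul' _ (hC.E_nonneg hf)]
    exact mul_le_mul_of_nonneg_left hC.sqrt_E_le_nrm (Real.sqrt_nonneg _)

/-- `Γ(u_r,u_r)` is continuous in `L²` along a `W`-continuous curve with bounded gradients -/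
theorem Γ_cont {J : Set ℝ} {s Λ : ℝ} {u : ℝ → M →ₘ[m] ℝ} (hs : s ∈ J) (hu : ∀ r ∈ J, u r ∈ C.W)
    (hΛ : ∀ r ∈ J, ∀ᵐ x ∂m, C.Γ (u r) (u r) x ≤ Λ)
    (hc : Tendsto (fun r => C.nrm2 (u r - u s)) (𝓝[J] s) (𝓝 0)) :
    Tendsto (fun r => I ((C.Γ (u r) (u r) - C.Γ (u s) (u s)) ^ 2)) (𝓝[J] s) (𝓝 0) := by
  have h0 : Tendsto (fun r => (4 * |Λ|) * C.nrm2 (u r - u s)) (𝓝[J] s) (𝓝 0) := by
    simpa using hc.const_mul (4 * |Λ|)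
  refine squeeze_zero' (Eventually.of_forall fun r => I_sq_nonneg _) ?_ h0
  filter_upwards [self_mem_nhdsWithin] with r hr
  have hd : u r - u s ∈ C.W := hC.sub_mem (hu r hr) (hu s hs)
  have ha : u r + u s ∈ C.W := hC.add_mem _ (hu r hr) _ (hu s hs)
  have e1 : C.Γ (u r) (u r) - C.Γ (u s) (u s) = C.Γ (u r - u s) (u r + u s) := by
    rw [hC.Γ_sub_left (hu r hr) (hu s hs) ha, hC.Γ_add_right (hu r hr) (hu r hr) (hu s hs),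
      hC.Γ_add_right (hu s hs) (hu r hr) (hu s hs), hC.symm _ (hu s hs) _ (hu r hr)]
    abel
  have hb : ∀ᵐ x ∂m, C.Γ (u r + u s) (u r + u s) x ≤ 4 * |Λ| := by
    have e2 : C.Γ (u r + u s) (u r + u s) + C.Γ (u r - u s) (u r - u s)
        = (2 : ℝ) • C.Γ (u r) (u r) + (2 : ℝ) • C.Γ (u s) (u s) := by
      rw [hC.add_left _ (hu r hr) _ (hu s hs) _ ha, hC.Γ_add_right (hu r hr) (hu r hr) (hu s hs),
        hC.Γ_add_right (hu s hs) (hu r hr) (hu s hs), hC.Γ_sub_left (hu r hr) (hu s hs) hd,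
        hC.Γ_sub_right (hu r hr) (hu r hr) (hu s hs), hC.Γ_sub_right (hu s hs) (hu r hr) (hu s hs),
        two_smul, two_smul]
      abel
    rw [eq_iff_ae] at e2
    filter_upwards [e2, add_ae (C.Γ (u r + u s) (u r + u s)) (C.Γ (u r - u s) (u r - u s)),
      add_ae ((2 : ℝ) • C.Γ (u r) (u r)) ((2 : ℝ) • C.Γ (u s) (u s)),
      smul_ae (C.Γ (u r) (u r)) 2, smul_ae (C.Γ (u s) (u s)) 2, hΛ r hr, hΛ s hs,
      hC.Γ_nonneg_ae hd] with x a1 a2 a3 a4 a5 a6 a7 a8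
    rw [a2, a3, a4, a5] at a1
    have := le_abs_self Λ
    linarith
  have hn := hC.Γ_nonneg_ae ha
  have hbt : MemLp (C.Γ (u r + u s) (u r + u s)) ∞ m := mem_top_iff.2 ⟨4 * |Λ|, by
    filter_upwards [hb, hn] with x a1 a2
    rw [abs_of_nonneg a2]; exact a1⟩
  rw [e1]
  refine (hC.I_Γ_sq_le' hd ha hb hbt).trans ?_
  exact mul_le_mul_of_nonneg_left (hC.E_le_nrm2 _) (by positivity)

end IsDir

/-- Curves of viscous potentials: `u' = σ Δu - ½|∇u|²` in `W`, with qualitative bounds. -/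
structure Calc.Visc (C : Calc m) (σ a b Λ : ℝ) (u : ℝ → M →ₘ[m] ℝ) : Prop where
  hσ : 0 < σ
  mem : ∀ t ∈ Icc a b, u t ∈ C.TestI
  bd : ∀ t ∈ Icc a b, ∀ᵐ x ∂m, |u t x| ≤ Λ
  grad : ∀ t ∈ Icc a b, ∀ᵐ x ∂m, C.Γ (u t) (u t) x ≤ Λ
  lap : ∀ t ∈ Icc a b, ∀ᵐ x ∂m, |C.lap (u t) x| ≤ Λ
  deriv : ∀ t ∈ Icc a b, Tendsto (fun r => C.nrm2 ((r - t)⁻¹ • (u r - u t)
    - (σ • C.lap (u t) - (2 : ℝ)⁻¹ • C.Γ (u t) (u t)))) (𝓝[Icc a b \ {t}] t) (𝓝 0)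
  lapc : ∀ t ∈ Icc a b, Tendsto (fun r => I ((C.lap (u r) - C.lap (u t)) ^ 2)) (𝓝[Icc a b] t) (𝓝 0)

/-- a real function differentiable within `Icc a b`, from the left -/
theorem real_left {l : ℝ → ℝ} {l' a b s : ℝ} (hs : s ∈ Ioc a b)
    (h : HasDerivWithinAt l l' (Icc a b) s) {δ : ℝ} (hδ : 0 < δ) :
    ∀ᶠ t in 𝓝[<] s, |l s - l t - (s - t) * l'| ≤ δ * (s - t) := by
  have hle : 𝓝[<] s ≤ 𝓝[Icc a b \ {s}] s := by
    rw [← nhdsWithin_Ioo_eq_nhdsLT hs.1]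
    exact nhdsWithin_mono _ fun t ht => ⟨⟨ht.1.le, ht.2.le.trans hs.2⟩, ne_of_lt ht.2⟩
  have h1 := (hasDerivWithinAt_iff_tendsto_slope.1 h).mono_left hle
  have h2 := (Metric.tendsto_nhds.1 h1) δ hδ
  filter_upwards [h2, self_mem_nhdsWithin] with t ht hts
  have hts' : t < s := hts
  rw [Real.dist_eq, slope_def_field] at ht
  have h3 : l s - l t - (s - t) * l' = ((l t - l s) / (t - s) - l') * (s - t) := by
    have : t - s ≠ 0 := by linarith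
    field_simp
    ring
  rw [h3, abs_mul, abs_of_pos (sub_pos.2 hts')]
  exact mul_le_mul_of_nonneg_right ht.le (sub_pos.2 hts').le

/-- assembling a left difference inequality -/
theorem left_asm {l A : ℝ → ℝ} {l' a b s a₀ J F : ℝ} (hs : s ∈ Ioc a b)
    (h : HasDerivWithinAt l l' (Icc a b) s) (hJ : 0 ≤ J)
    (hA : ∀ δ > 0, ∀ᶠ t in 𝓝[<] s, A t ≤ (s - t) * a₀ + δ * (s - t))
    (hm : a₀ - l' * J ≤ F) {δ : ℝ} (hδ : 0 < δ) :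
    ∀ᶠ t in 𝓝[<] s, A t - (l s - l t) * J ≤ (F + δ) * (s - t) := by
  have hδ1 : 0 < δ / 2 := by positivity
  have hδ2 : 0 < δ / (2 * (J + 1)) := by positivity
  filter_upwards [hA _ hδ1, real_left hs h hδ2, self_mem_nhdsWithin] with t k1 k2 k4
  have k4' : 0 < s - t := sub_pos.2 k4
  have k2' := (abs_le.1 k2).1
  have g1 : (l s - l t) * J ≥ (s - t) * l' * J - δ / 2 * (s - t) := by
    have g2 : (s - t) * l' - δ / (2 * (J + 1)) * (s - t) ≤ l s - l t := by linarith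
    have g3 := mul_le_mul_of_nonneg_right g2 hJ
    have g4 : δ / (2 * (J + 1)) * (s - t) * J ≤ δ / 2 * (s - t) := by
      have : δ / (2 * (J + 1)) * J ≤ δ / 2 := by
        rw [div_mul_eq_mul_div, div_le_div_iff₀ (by positivity) (by norm_num)]
        nlinarith
      nlinarith
    nlinarith
  have g5 := mul_le_mul_of_nonneg_right hm k4'.le
  nlinarith

namespace IsGamma

variable (hC : IsGamma C)
include hC

/-- A3, the static part -/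
theorem lap_static {K N : ℝ} (hN : 0 < N) (hB : C.BE K N) [SigmaFinite m] {σ Λ : ℝ} (hσ : 0 < σ)
    {f : M →ₘ[m] ℝ} (hf : f ∈ C.TestI) (hΛ : ∀ᵐ x ∂m, C.Γ f f x ≤ Λ) {l l' G : ℝ}
    (hG : ∀ᵐ x ∂m, C.Γ f f x ≤ G) (hl0 : 0 ≤ l) (hl' : 0 ≤ l' + l ^ 2 / N - |K| * G) :
    -I (C.Γ (σ • C.lap f - (2 : ℝ)⁻¹ • C.Γ f f) (sqc l (C.lap f))) - l' * I (sqc l (C.lap f))
      ≤ 3 * |Λ| / (4 * σ) * FF l (C.lap f) := by
  have hB' : C.BEi K := hC.bei hN hB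
  have hD := hC.toIsDir
  have hT : f ∈ C.Test := hf.1
  have hA : f ∈ C.A := hC.test_A hT
  have hW : f ∈ C.W := hA.1
  have hwA : C.lap f ∈ C.A := ⟨hC.test_lap_mem hT, hf.2⟩
  set w := C.lap f with hw
  set φ := sqc l w with hφ
  have hφA : φ ∈ C.A := (hD.sqc_mem hl0 hwA).1
  have hφ0 : 0 ≤ φ := sqc_nonneg _ _
  have hΛ' : ∀ᵐ x ∂m, C.Γ f f x ≤ |Λ| := hΛ.mono fun x hx => hx.trans (le_abs_self _)
  obtain ⟨hX, hE⟩ := hD.sqc_E hl0 hwA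
  obtain ⟨m1, htr⟩ := hD.sqc_transport hl0 hwA hW hσ (abs_nonneg Λ) hΛ'
  set X := ∫ x, max (w x - l) 0 * C.Γ w w x ∂m with hXdef
  have hΓW : C.Γ f f ∈ C.W := (hC.Γ_mem hB' hT hT).1
  have hBo := hC.bochner_N hN hB hT hφA hφ0
  have i1 : MemLp φ 1 m := sqc_mem1 hl0 (hC.memLp _ hwA.1)
  have hφI : 0 ≤ I φ := I_nonneg hφ0
  have m2 : MemLp (φ * C.Γ f f : M →ₘ[m] ℝ) 1 m := mem_mul_top hφA.2 (hC.mem1 _ hW)
  have m3 : MemLp (φ * w ^ 2 : M →ₘ[m] ℝ) 1 m := mem_mul_top hφA.2 (mem_sq (hC.memLp _ hwA.1))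
  have e2 : I (φ * C.Γ f f) ≤ G * I φ := by
    rw [← I_smul]
    refine I_mono m2 (mem_smul _ i1) (le_iff_ae.2 ?_)
    rw [nonneg_iff_ae] at hφ0
    filter_upwards [mul_ae φ (C.Γ f f), smul_ae φ G, hG, hφ0] with x a1 a2 a3 a4
    rw [a1, a2, mul_comm]
    exact mul_le_mul_of_nonneg_right a3 a4
  have e2' : 0 ≤ I (φ * C.Γ f f) := by
    refine I_nonneg (nonneg_iff_ae.2 ?_)
    rw [nonneg_iff_ae] at hφ0
    filter_upwards [mul_ae φ (C.Γ f f), hD.Γ_nonneg_ae hW, hφ0] with x a1 a2 a3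
    rw [a1]; positivity
  have e3 : l ^ 2 * I φ ≤ I (φ * w ^ 2) := by
    rw [← I_smul]
    refine I_mono (mem_smul _ i1) m3 (le_iff_ae.2 ?_)
    filter_upwards [mul_ae φ (w ^ 2), sq_ae w, smul_ae φ (l ^ 2), sqc_ae l w] with
      x a1 a2 a3 a4
    rw [a1, a2, a3, hφ, a4, mul_comm]
    unfold psq
    rcases le_total (w x - l) 0 with h | h
    · rw [max_eq_right h]; simp
    · rw [max_eq_left h]
      have : l ^ 2 ≤ w x ^ 2 := pow_le_pow_left₀ hl0 (by linarith) 2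
      exact mul_le_mul_of_nonneg_left this (sq_nonneg _)
  have e4 : |K| * I (φ * C.Γ f f) ≤ |K| * (G * I φ) :=
    mul_le_mul_of_nonneg_left e2 (abs_nonneg K)
  have e4' : -(K * I (φ * C.Γ f f)) ≤ |K| * I (φ * C.Γ f f) := by
    have := mul_le_mul_of_nonneg_right (neg_le_abs K) e2'
    linarith
  have e5 : N⁻¹ * (l ^ 2 * I φ) ≤ N⁻¹ * I (φ * w ^ 2) :=
    mul_le_mul_of_nonneg_left e3 (inv_nonneg.2 hN.le)
  have e6 : I (C.Γ (σ • w - (2 : ℝ)⁻¹ • C.Γ f f) φ)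
      = 2 * σ * X - (2 : ℝ)⁻¹ * I (C.Γ (C.Γ f f) φ) := by
    rw [hD.Γ_sub_left (hC.smul_mem _ _ hwA.1) (hC.smul_mem _ _ hΓW) hφA.1,
      hC.smul_left _ _ hwA.1 _ hφA.1, hC.smul_left _ _ hΓW _ hφA.1,
      I_sub (mem_smul _ (hD.Γ_mem1 hwA.1 hφA.1)) (mem_smul _ (hD.Γ_mem1 hΓW hφA.1)),
      I_smul, I_smul, hE]
    ring
  have e7 : φ * C.Γ f w = φ * C.Γ w f := by rw [hC.symm _ hW _ hwA.1]
  have e8 := (abs_le.1 htr).1
  have e9 : 0 ≤ (l' + l ^ 2 / N - |K| * G) * I φ := mul_nonneg hl' hφI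
  have e10 : 0 ≤ σ * X := by
    refine mul_nonneg hσ.le (integral_nonneg_of_ae ?_)
    filter_upwards [hD.Γ_nonneg_ae hwA.1] with x hx
    exact mul_nonneg (le_max_right _ _) hx
  rw [e6]
  rw [e7] at hBo
  have e11 : (l' + l ^ 2 / N - |K| * G) * I φ
      = l' * I φ + N⁻¹ * (l ^ 2 * I φ) - |K| * (G * I φ) := by
    field_simp
  rw [e11] at e9
  linarith

/-- A3: upper bound of the Laplacian by a supersolution of `l' = -l²/N + |K| G`. -/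
theorem visc_lap {K N : ℝ} (hN : 0 < N) (hB : C.BE K N) [SigmaFinite m] {σ a b Λ : ℝ}
    {u : ℝ → M →ₘ[m] ℝ} (hu : C.Visc σ a b Λ u) {l l' G : ℝ → ℝ}
    (hG : ∀ t ∈ Icc a b, ∀ᵐ x ∂m, C.Γ (u t) (u t) x ≤ G t) (hl0 : ∀ t ∈ Icc a b, 0 ≤ l t)
    (hld : ∀ t ∈ Icc a b, HasDerivWithinAt l (l' t) (Icc a b) t)
    (hl' : ∀ t ∈ Icc a b, 0 ≤ l' t + l t ^ 2 / N - |K| * G t)
    (h0 : ∀ᵐ x ∂m, C.lap (u a) x ≤ l a) :
    ∀ t ∈ Icc a b, ∀ᵐ x ∂m, C.lap (u t) x ≤ l t := by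
  have hB' : C.BEi K := hC.bei hN hB
  have hD := hC.toIsDir
  have hT : ∀ t ∈ Icc a b, u t ∈ C.Test := fun t ht => (hu.mem t ht).1
  have hW : ∀ t ∈ Icc a b, u t ∈ C.W := fun t ht => (hC.test_A (hT t ht)).1
  have hlapA : ∀ t ∈ Icc a b, C.lap (u t) ∈ C.A := fun t ht =>
    ⟨hC.test_lap_mem (hT t ht), (hu.mem t ht).2⟩
  refine max_scheme (w := fun t => C.lap (u t)) (l := l) (c := 3 * |Λ| / (4 * σ)) (Λ := Λ)
    (fun t ht => hC.memLp _ (hlapA t ht).1) hu.lap hu.lapc hl0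
    (fun t ht => (hld t ht).continuousWithinAt) h0 ?_
  intro s hs δ hδ
  have hs' : s ∈ Icc a b := ⟨hs.1.le, hs.2⟩
  have hφA : sqc (l s) (C.lap (u s)) ∈ C.A := (hD.sqc_mem (hl0 s hs') (hlapA s hs')).1
  have hvW : σ • C.lap (u s) - (2 : ℝ)⁻¹ • C.Γ (u s) (u s) ∈ C.W :=
    hD.sub_mem (hC.smul_mem _ _ (hlapA s hs').1)
      (hC.smul_mem _ _ (hC.Γ_mem hB' (hT s hs') (hT s hs')).1)
  refine left_asm hs (hld s hs') (I_nonneg (sqc_nonneg _ _)) (fun δ' hδ' => ?_)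
    (hC.lap_static hN hB hu.hσ (hu.mem s hs') (hu.grad s hs') (hG s hs') (hl0 s hs')
      (hl' s hs')) hδ
  have h1 := hD.left_E hs hW hvW (hu.deriv s hs') hφA.1 hδ'
  have h3 : ∀ᶠ t in 𝓝[<] s, t ∈ Icc a b := by
    filter_upwards [Ioo_mem_nhdsLT hs.1] with t ht using ⟨ht.1.le, ht.2.le.trans hs.2⟩
  filter_upwards [h1, h3] with t k1 k3
  set φ := sqc (l s) (C.lap (u s))
  have hL : ∀ r ∈ Icc a b, I (C.Γ (u r) φ) = -I (φ * C.lap (u r)) := fun r hr => by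
    have := (hC.test_isLap (hT r hr)).2.2 φ hφA.1
    rw [mul_comm φ]
    exact this
  have f1 : I (φ * (C.lap (u s) - C.lap (u t))) = -I (C.Γ (u s - u t) φ) := by
    rw [mul_sub, I_sub (mem_mul_22 (hC.memLp _ hφA.1) (hC.memLp _ (hlapA s hs').1))
      (mem_mul_22 (hC.memLp _ hφA.1) (hC.memLp _ (hlapA t k3).1)),
      hD.Γ_sub_left (hW s hs') (hW t k3) hφA.1,
      I_sub (hD.Γ_mem1 (hW s hs') hφA.1) (hD.Γ_mem1 (hW t k3) hφA.1),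
      hL s hs', hL t k3]
    ring
  rw [f1]
  have k1' := (abs_le.1 k1).1
  linarith

end IsGamma

end Vale.Agent.P233
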